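import Mathlib.Topology.Separation.Hausdorff
import Mathlib.Topology.Bases

/-!
P133 (helper778): spaces with property C (Haver, Addis - Gresham).
-/

namespace Vale.Agent.P133.R2.H778

universe v

/-- The space `X` has property C: for every sequence `U 0, U 1, …` of open covers of `X` there are
families `V 0, V 1, …` of open sets, such that the members of each `V n` are pairwise disjoint and
each of them is contained in a member of `U n`, and all the families together cover `X`. -/
def PropertyC (X : Type v) [TopologicalSpace X] : Prop :=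
  ∀ U : ℕ → Set (Set X), (∀ n, (∀ u ∈ U n, IsOpen u) ∧ ⋃₀ U n = Set.univ) →
    ∃ V : ℕ → Set (Set X), (∀ n, (∀ v ∈ V n, IsOpen v ∧ ∃ u ∈ U n, v ⊆ u) ∧
      (V n).PairwiseDisjoint id) ∧ (⋃ n, ⋃₀ V n) = Set.univ

end Vale.Agent.P133.R2.H778
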