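import Vale.Agent.P133.R2.H778.PropC
import Mathlib

/-!
P133 (helper778): finite families of open sets over compact subsets with property C.
-/

namespace Vale.Agent.P133.R2.H778

open Set

universe v

theorem family {X : Type v} [TopologicalSpace X] [T2Space X] {K : Set X} (hK : IsCompact K)
    (hC : PropertyC K) (U : ℕ → Set (Set X))
    (hU : ∀ n, (∀ u ∈ U n, IsOpen u) ∧ K ⊆ ⋃₀ U n) :
    ∃ (m : ℕ) (n : Fin m → ℕ) (v : Fin m → Set X), (∀ j, IsOpen (v j)) ∧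
      (∀ j, ∃ u ∈ U (n j), v j ⊆ u) ∧
      (∀ j j', j ≠ j' → n j = n j' → Disjoint (v j) (v j')) ∧ K ⊆ ⋃ j, v j := by
  classical
  have : CompactSpace K := isCompact_iff_compactSpace.1 hK
  let U' : ℕ → Set (Set K) := fun n => (fun u : Set X => (Subtype.val ⁻¹' u : Set K)) '' U n
  obtain ⟨V, hV, hVc⟩ := hC U' fun n => by
    refine ⟨?_, eq_univ_of_forall fun x => ?_⟩
    · rintro _ ⟨u, hu, rfl⟩
      exact ((hU n).1 u hu).preimage continuous_subtype_val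
    · obtain ⟨u, hu, hxu⟩ := (hU n).2 x.2
      exact ⟨_, ⟨u, hu, rfl⟩, hxu⟩
  let ι : Type v := {p : ℕ × Set K // p.2 ∈ V p.1}
  have hcov : (univ : Set K) ⊆ ⋃ i : ι, i.1.2 := by
    intro x _
    have h1 : x ∈ ⋃ n, ⋃₀ V n := by rw [hVc]; exact mem_univ x
    simp only [mem_iUnion] at h1
    obtain ⟨n, v, hv, hxv⟩ := h1
    exact mem_iUnion.2 ⟨⟨(n, v), hv⟩, hxv⟩
  obtain ⟨T, hTc⟩ := isCompact_univ.elim_finite_subcover (fun i : ι => i.1.2)
    (fun i => ((hV i.1.1).1 _ i.2).1) hcov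
  let q : Fin T.card → ι := fun j => (T.equivFin.symm j : ι)
  have hq : Function.Injective q := fun a b h => T.equivFin.symm.injective (Subtype.ext h)
  have hcov2 : (univ : Set K) ⊆ ⋃ j : Fin T.card, (q j).1.2 := by
    intro x hx
    have h1 := hTc hx
    simp only [mem_iUnion] at h1 ⊢
    obtain ⟨i, hi, hxi⟩ := h1
    refine ⟨T.equivFin ⟨i, hi⟩, ?_⟩
    show x ∈ ((T.equivFin.symm (T.equivFin ⟨i, hi⟩) : T) : ι).1.2
    rw [Equiv.symm_apply_apply]
    exact hxi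
  obtain ⟨C, hCc, hCcl, hCs⟩ := exists_subset_iUnion_closed_subset isClosed_univ
    (u := fun j => (q j).1.2) (fun j => ((hV (q j).1.1).1 _ (q j).2).1) (fun x _ => toFinite _)
    hcov2
  let n : Fin T.card → ℕ := fun j => (q j).1.1
  let D : Fin T.card → Set X := fun j => Subtype.val '' C j
  have hDc : ∀ j, IsCompact (D j) := fun j => (hCcl j).isCompact.image continuous_subtype_val
  have hu : ∀ j, ∃ u ∈ U (n j), D j ⊆ u := by
    intro j
    obtain ⟨-, u', ⟨u, hu, rfl⟩, hu'⟩ := (hV (q j).1.1).1 _ (q j).2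
    refine ⟨u, hu, ?_⟩
    rintro _ ⟨x, hx, rfl⟩
    exact hu' (hCs j hx)
  choose u huU hDu using hu
  have hd : ∀ j j', j ≠ j' → n j = n j' → Disjoint (D j) (D j') := by
    intro j j' hjj hn
    rw [Set.disjoint_left]
    rintro _ ⟨x, hx, rfl⟩ ⟨y, hy, hxy⟩
    have hxy' : y = x := Subtype.ext hxy
    rw [hxy'] at hy
    apply hjj
    apply hq
    apply Subtype.ext
    refine Prod.ext hn ?_
    by_contra hne
    have hj2 : (q j').1.2 ∈ V (q j).1.1 := by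
      have h5 : (q j).1.1 = (q j').1.1 := hn
      exact h5 ▸ (q j').2
    exact Set.disjoint_left.1 ((hV (q j).1.1).2 (q j).2 hj2 hne) (hCs j hx) (hCs j' hy)
  have hsep : ∀ j j', ∃ P Q : Set X, IsOpen P ∧ IsOpen Q ∧ D j ⊆ P ∧ D j' ⊆ Q ∧
      (j ≠ j' → n j = n j' → Disjoint P Q) := by
    intro j j'
    by_cases h : j ≠ j' ∧ n j = n j'
    · obtain ⟨P, Q, hP, hQ, h1, h2, h3⟩ :=
        SeparatedNhds.of_isCompact_isCompact (hDc j) (hDc j') (hd j j' h.1 h.2)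
      exact ⟨P, Q, hP, hQ, h1, h2, fun _ _ => h3⟩
    · exact ⟨univ, univ, isOpen_univ, isOpen_univ, subset_univ _, subset_univ _,
        fun h1 h2 => absurd ⟨h1, h2⟩ h⟩
  choose P Q hP hQ hDP hDQ hPQ using hsep
  refine ⟨T.card, n, fun j => u j ∩ ⋂ j', (P j j' ∩ Q j' j), fun j => ?_, fun j => ?_, ?_, ?_⟩
  · exact ((hU (n j)).1 _ (huU j)).inter
      (isOpen_iInter_of_finite fun j' => (hP j j').inter (hQ j' j))
  · exact ⟨u j, huU j, inter_subset_left⟩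
  · intro j j' hjj hn
    rw [Set.disjoint_left]
    intro x hx hx'
    have h1 : x ∈ P j j' := (mem_iInter.1 hx.2 j').1
    have h2 : x ∈ Q j j' := (mem_iInter.1 hx'.2 j).2
    exact Set.disjoint_left.1 (hPQ j j' hjj hn) h1 h2
  · intro x hx
    have h1 := hCc (mem_univ (⟨x, hx⟩ : K))
    simp only [mem_iUnion] at h1
    obtain ⟨j, hj⟩ := h1
    have hxD : ∀ j', x ∈ P j j' ∩ Q j' j := fun j' =>
      ⟨hDP j j' ⟨_, hj, rfl⟩, hDQ j' j ⟨_, hj, rfl⟩⟩
    exact mem_iUnion.2 ⟨j, hDu j ⟨_, hj, rfl⟩, mem_iInter.2 hxD⟩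

end Vale.Agent.P133.R2.H778
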