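import Vale.Agent.P133.R2.H778.PiField
import Vale.Agent.P133.R2.H778.Family

/-!
P133 (helper778): two large orthogonal elements in hereditary subalgebras and purely infinite
fibres give pure infiniteness, over spaces whose compact subsets have property C.
-/

open scoped ComplexOrder

namespace Vale.Agent.P133.R2.H778

open Vale.Agent.P133 Vale.Agent.P133.Statement Vale.Agent.P133.H832 Vale.Agent.P133.R2.H28
  Vale.Agent.P133F Vale.Agent.P133.H681 Set Filter Topology

universe u v

section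

variable {X : Type v} [TopologicalSpace X] {B : X → Type u} [∀ t, NonUnitalCStarAlgebra (B t)]
  [∀ t, PartialOrder (B t)] [∀ t, StarOrderedRing (B t)] {A : Type u} [NonUnitalCStarAlgebra A]
  [PartialOrder A] [StarOrderedRing A]

theorem two_copies_gen [T2Space X] [LocallyCompactSpace X]
    (hX : ∀ K : Set X, IsCompact K → PropertyC K) (hS : IsSectionAlgebra B A) (hT : TwoOrth A)
    (hPI : ∀ t, PurelyInfinite (B t)) {a : A} (ha : 0 ≤ a)
    {δ : ℝ} (hδ : 0 < δ) {ε : ℝ} (hε : 0 < ε) : ∃ x : Fin 2 → A, ∀ i k,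
      ‖star (x i) * a * x k - (if i = k then H28.cut a δ else 0)‖ ≤ ε := by
  classical
  obtain ⟨b, hb0, hbo, hbR, hbI⟩ := exists_seq hT ha hδ
  obtain ⟨π, hπs, hn, hu, hm⟩ := hS
  set c : A := H28.cut a δ with hcdef
  have hc0 : 0 ≤ c := H28.cut_nonneg a δ
  set cc : Fin 2 → Fin 2 → A := fun i k => if i = k then c else 0 with hcc
  have hε2 : 0 < ε / 2 := half_pos hε
  -- local solutions
  let U : ℕ → Set (Set X) := fun n => {u | IsOpen u ∧ ∃ R : Fin 2 → A, ∀ s ∈ u, ∀ i k,
    ‖π s (star (R i) * b n * R k - cc i k)‖ ≤ ε / 2}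
  have hU : ∀ n, (∀ u ∈ U n, IsOpen u) ∧ ⋃₀ U n = univ := by
    intro n
    refine ⟨fun u hu => hu.1, eq_univ_of_forall fun t => ?_⟩
    have h1 : InfB (π t (b n)) (π t c) :=
      infB_of_pi (eltPI_of (B t) (hPI t)) (map_nonneg' (π t) (hb0 n)) (map_nonneg' (π t) hc0)
        (inId_map (π t) (fun z => NonUnitalStarAlgHom.norm_apply_le _ _) (hbI n))
    obtain ⟨r, hr⟩ := h1.2 2 (ε / 2) hε2
    choose R hR using fun i => hπs t (r i)
    refine ⟨⋂ i, ⋂ k, {s | ε / 2 ≤ ‖π s (star (R i) * b n * R k - cc i k)‖}ᶜ, ⟨?_, R, ?_⟩, ?_⟩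
    · exact isOpen_iInter_of_finite fun i => isOpen_iInter_of_finite fun k =>
        (hu _ _ hε2).isClosed.isOpen_compl
    · intro s hs i k
      have h2 := mem_iInter.1 (mem_iInter.1 hs i) k
      simp only [mem_compl_iff, mem_ofPred_eq, not_le] at h2
      exact h2.le
    · refine mem_iInter.2 fun i => mem_iInter.2 fun k => ?_
      simp only [mem_compl_iff, mem_ofPred_eq, not_le]
      have h2 := hr i k
      have h3 : π t (star (R i) * b n * R k - cc i k) =
          star (r i) * π t (b n) * r k - (if i = k then π t c else 0) := by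
        rw [map_sub, map_mul, map_mul, map_star, hR, hR]
        congr 1
        simp only [hcc]
        split_ifs
        · rfl
        · exact map_zero _
      rw [h3]
      exact h2
  set K : Set X := {t | δ ≤ ‖π t a‖} with hK
  have hKc : IsCompact K := hu a δ hδ
  obtain ⟨m, lv, v, hvo, hvU, hvd, hcov2⟩ := family hKc (hX K hKc) U fun n =>
    ⟨(hU n).1, fun x _ => by rw [(hU n).2]; exact mem_univ x⟩
  obtain ⟨f, hfs, -⟩ := PartitionOfUnity.exists_isSubordinate_of_locallyFinite_t2space hKc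
    v hvo (locallyFinite_of_finite _) hcov2
  have hf0 : ∀ j t, 0 ≤ f j t := fun j t => f.nonneg j t
  have hf1 : ∀ j t, f j t ≤ 1 := fun j t => f.le_one j t
  have hfs1 : ∀ t, ∑ j, f j t ≤ 1 := fun t => by
    have := f.sum_le_one t
    rwa [finsum_eq_sum_of_fintype] at this
  have hfK : ∀ t ∈ K, ∑ j, f j t = 1 := fun t ht => by
    have := f.sum_eq_one ht
    rwa [finsum_eq_sum_of_fintype] at this
  have hsupp : ∀ j t, f j t ≠ 0 → t ∈ v j := fun j t h => hfs j (subset_tsupport _ h)
  have hR : ∀ j, ∃ R : Fin 2 → A, ∀ s ∈ v j, ∀ i k,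
      ‖π s (star (R i) * b (lv j) * R k - cc i k)‖ ≤ ε / 2 := by
    intro j
    obtain ⟨u, hu, hvu⟩ := hvU j
    obtain ⟨-, R, hR⟩ := hu
    exact ⟨R, fun s hs => hR s (hvu hs)⟩
  choose R hR using hR
  let g : Fin m → C(X, ℝ) := fun j => ⟨fun t => √(f j t), by fun_prop⟩
  have hg : ∀ j t, g j t = √(f j t) := fun j t => rfl
  have hg01 : ∀ j t, 0 ≤ g j t ∧ g j t ≤ 1 := fun j t =>
    ⟨Real.sqrt_nonneg _, Real.sqrt_le_one.2 (hf1 j t)⟩
  let Q : Fin m → A := fun j => CFC.sqrt (b (lv j))
  have hQs : ∀ j, star (Q j) = Q j := fun j =>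
    (IsSelfAdjoint.of_nonneg (CFC.sqrt_nonneg _)).star_eq
  have hQQ : ∀ j, Q j * Q j = b (lv j) := fun j => CFC.sqrt_mul_sqrt_self _ (hb0 _)
  have hQo : ∀ j j', (lv j) ≠ (lv j') → Q j * Q j' = 0 := by
    intro j j' h
    have h1 := RI.orth (z := b (lv j)) (z' := b (lv j'))
      (by rw [(IsSelfAdjoint.of_nonneg (hb0 _)).star_eq]; exact hbo _ _ h)
      (sqrt_mem_RI (hb0 (lv j))) (sqrt_mem_RI (hb0 (lv j')))
    have h2 : star (Q j) * Q j' = 0 := h1
    rwa [hQs] at h2
  choose e he using fun (j : Fin m) (i : Fin 2) => hm (g j) (hg01 j) (Q j * R j i)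
  let ξ : Fin 2 → A := fun i => ∑ j, e j i
  have hsa : star (CFC.sqrt a) = CFC.sqrt a :=
    (IsSelfAdjoint.of_nonneg (CFC.sqrt_nonneg a)).star_eq
  have hqa : CFC.sqrt a * CFC.sqrt a = a := CFC.sqrt_mul_sqrt_self a ha
  have hξR : ∀ i, ξ i ∈ RI (CFC.sqrt a) := by
    intro i
    refine RI.sum _ fun j _ => ri_fun hn hm (hg01 j) ?_ (he j i)
    refine RI.mul ?_ _
    refine RI.trans (sqrt_mem_RI (hb0 _)) (RI.trans (hbR _) ?_)
    have h1 := RI.mul_self (CFC.sqrt a) (CFC.sqrt a)
    rwa [hqa] at h1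
  -- the pointwise estimate
  have hpt : ∀ i k, ‖star (ξ i) * ξ k - cc i k‖ ≤ ε / 2 := by
    intro i k
    refine hn _ _ hε2.le fun t => ?_
    have hξt : ∀ i, π t (ξ i) = ∑ j, (g j t : ℂ) • π t (Q j * R j i) := by
      intro i
      show π t (∑ j, e j i) = _
      rw [map_sum]
      exact Finset.sum_congr rfl fun j _ => he j i t
    have h1 : π t (star (ξ i) * ξ k) =
        ∑ j, (f j t : ℂ) • π t (star (R j i) * b (lv j) * R j k) := by
      rw [map_mul, map_star, hξt, hξt, star_sum, Finset.sum_mul_sum]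
      refine Finset.sum_congr rfl fun j _ => ?_
      rw [Finset.sum_eq_single j]
      · rw [star_smul, smul_mul_smul_comm, ← map_star, ← map_mul]
        have h2 : star ((g j t : ℝ) : ℂ) * ((g j t : ℝ) : ℂ) = ((f j t : ℝ) : ℂ) := by
          rw [Complex.star_def, Complex.conj_ofReal, ← Complex.ofReal_mul, hg,
            Real.mul_self_sqrt (hf0 j t)]
        rw [h2, star_mul, hQs]
        congr 2
        rw [← hQQ j]
        simp only [mul_assoc]
      · intro j' _ hjj
        by_cases h3 : (lv j) = (lv j')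
        · -- same level: disjoint supports
          have h4 : g j t = 0 ∨ g j' t = 0 := by
            by_contra hcon
            push Not at hcon
            have k1 : f j t ≠ 0 := fun h => hcon.1 (by rw [hg, h, Real.sqrt_zero])
            have k2 : f j' t ≠ 0 := fun h => hcon.2 (by rw [hg, h, Real.sqrt_zero])
            exact Set.disjoint_left.1 (hvd j j' (Ne.symm hjj) h3) (hsupp j t k1)
              (hsupp j' t k2)
          rcases h4 with h4 | h4
          · rw [h4]; simp
          · rw [h4]; simp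
        · rw [star_smul, smul_mul_smul_comm, ← map_star, ← map_mul, star_mul, hQs]
          have h4 : star (R j i) * Q j * (Q j' * R j' k) = 0 := by
            rw [mul_assoc, ← mul_assoc (Q j), hQo j j' h3, zero_mul, mul_zero]
          rw [h4, map_zero, smul_zero]
      · intro h; exact absurd (Finset.mem_univ j) h
    have h5 : ((∑ j, f j t : ℝ) : ℂ) • π t (cc i k) = π t (cc i k) := by
      by_cases ht : t ∈ K
      · rw [hfK t ht, Complex.ofReal_one, one_smul]
      · have h6 : π t c = 0 := cut_eq_zero_of_norm (π t) ha hδ (le_of_lt (not_le.1 ht))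
        have h7 : π t (cc i k) = 0 := by
          simp only [hcc]
          split_ifs
          · exact h6
          · exact map_zero _
        rw [h7, smul_zero]
    have h8 : π t (star (ξ i) * ξ k - cc i k) =
        ∑ j, (f j t : ℂ) • π t (star (R j i) * b (lv j) * R j k - cc i k) := by
      rw [map_sub, h1, ← h5, Complex.ofReal_sum, Finset.sum_smul, ← Finset.sum_sub_distrib]
      exact Finset.sum_congr rfl fun j _ => by rw [map_sub, smul_sub]
    rw [h8]
    calc ‖∑ j, (f j t : ℂ) • π t (star (R j i) * b (lv j) * R j k - cc i k)‖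
        ≤ ∑ j, f j t * (ε / 2) := by
          refine norm_sum_le_of_le _ fun j _ => ?_
          rw [norm_smul, Complex.norm_real, Real.norm_eq_abs, abs_of_nonneg (hf0 j t)]
          by_cases hj : f j t = 0
          · rw [hj, zero_mul, zero_mul]
          · exact mul_le_mul_of_nonneg_left (hR j t (hsupp j t hj) i k) (hf0 j t)
      _ = (∑ j, f j t) * (ε / 2) := by rw [Finset.sum_mul]
      _ ≤ ε / 2 := by nlinarith [hfs1 t]
  -- transfer to a
  set M : ℝ := ‖ξ 0‖ + ‖ξ 1‖ + 1 with hM
  have hM0 : 0 < M := by positivity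
  have hξM : ∀ i, ‖ξ i‖ ≤ M - 1 := by
    intro i
    fin_cases i
    · show ‖ξ 0‖ ≤ _
      have := norm_nonneg (ξ 1); linarith
    · show ‖ξ 1‖ ≤ _
      have := norm_nonneg (ξ 0); linarith
  set η : ℝ := min 1 (ε / (4 * M)) with hη
  have hη0 : 0 < η := lt_min one_pos (by positivity)
  choose x hx using fun i => mem_RI.1 (hξR i) η hη0
  refine ⟨x, fun i k => ?_⟩
  have e1 : star (x i) * a * x k = star (CFC.sqrt a * x i) * (CFC.sqrt a * x k) := by
    rw [star_mul, hsa, mul_assoc, mul_assoc, ← mul_assoc (CFC.sqrt a), hqa]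
  have e2 : star (CFC.sqrt a * x i) * (CFC.sqrt a * x k) - cc i k =
      (star (CFC.sqrt a * x i - ξ i) * (CFC.sqrt a * x k) +
        star (ξ i) * (CFC.sqrt a * x k - ξ k)) + (star (ξ i) * ξ k - cc i k) := by
    rw [star_sub, sub_mul, mul_sub]; abel
  have n1 : ‖CFC.sqrt a * x k‖ ≤ M := by
    have h1 : CFC.sqrt a * x k = (CFC.sqrt a * x k - ξ k) + ξ k := by abel
    calc ‖CFC.sqrt a * x k‖ = ‖(CFC.sqrt a * x k - ξ k) + ξ k‖ := by rw [← h1]
      _ ≤ ‖CFC.sqrt a * x k - ξ k‖ + ‖ξ k‖ := norm_add_le _ _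
      _ ≤ M := by
        have := (hx k).le.trans (min_le_left _ _)
        have := hξM k
        linarith
  have n2 : ‖star (CFC.sqrt a * x i - ξ i) * (CFC.sqrt a * x k)‖ ≤ η * M := by
    refine (norm_mul_le _ _).trans ?_
    rw [norm_star]
    exact mul_le_mul (hx i).le n1 (norm_nonneg _) hη0.le
  have n3 : ‖star (ξ i) * (CFC.sqrt a * x k - ξ k)‖ ≤ M * η := by
    refine (norm_mul_le _ _).trans ?_
    rw [norm_star]
    exact mul_le_mul (by have := hξM i; linarith) (hx k).le (norm_nonneg _) hM0.le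
  have n4 : η * M ≤ ε / 4 := by
    have h1 : η ≤ ε / (4 * M) := min_le_right _ _
    rw [le_div_iff₀ (by positivity)] at h1
    linarith
  show ‖star (x i) * a * x k - cc i k‖ ≤ ε
  rw [e1, e2]
  calc _ ≤ (η * M + M * η) + ε / 2 :=
        (norm_add_le _ _).trans (add_le_add ((norm_add_le _ _).trans (add_le_add n2 n3)) (hpt i k))
    _ ≤ ε := by linarith [mul_comm M η]

theorem pi_of_twoOrth_fields [T2Space X] [LocallyCompactSpace X]
    (hX : ∀ K : Set X, IsCompact K → PropertyC K) (hS : IsSectionAlgebra B A) (hT : TwoOrth A)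
    (hPI : ∀ t, PurelyInfinite (B t)) : PurelyInfinite A := by
  refine pi_of_eltPI fun a a0 ε hε => ?_
  obtain ⟨x, hx⟩ := two_copies_gen hX hS hT hPI a0 (δ := ε / 4) (by positivity) (ε := ε / 2)
    (by positivity)
  have h1 := norm_cut_sub_le a0 (show (0 : ℝ) < ε / 4 by positivity)
  have h2 : ∀ i, ‖star (x i) * a * x i - a‖ < ε := by
    intro i
    have h3 := hx i i
    rw [if_pos rfl] at h3
    have h4 : star (x i) * a * x i - a =
        (star (x i) * a * x i - H28.cut a (ε / 4)) + (H28.cut a (ε / 4) - a) := by abel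
    rw [h4]
    exact lt_of_le_of_lt (norm_add_le _ _) (by linarith)
  refine ⟨x 0, x 1, h2 0, h2 1, ?_⟩
  have h3 := hx 0 1
  rw [if_neg (by decide), sub_zero] at h3
  linarith

/-- the fibres of a purely infinite algebra -/
theorem fibres_pi (hS : IsSectionAlgebra B A) (hA : PurelyInfinite A) (t : X) :
    PurelyInfinite (B t) := by
  obtain ⟨π, hπ, -⟩ := hS
  exact pi_of_eltPI (eltPI_of_surj (π t) (hπ t) (eltPI_of A hA))

end

end Vale.Agent.P133.R2.H778
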