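import Vale.Agent.P133.R2.H778.Gen2
import Vale.Agent.P133.H832.Bridge

/-!
P133 (helper778): fields of C*-algebras over spaces with property C.
-/

open scoped ComplexOrder

namespace Vale.Agent.P133.R2.H778

open Vale.Agent.P133 Vale.Agent.P133.Statement Vale.Agent.P133.H832 Vale.Agent.P133.R2.H28
  Vale.Agent.P133F Vale.Agent.P133.H681 Set Filter Topology

universe u v

section

variable {X : Type v} [TopologicalSpace X] {B : X → Type u} [∀ t, NonUnitalCStarAlgebra (B t)]
  [∀ t, PartialOrder (B t)] [∀ t, StarOrderedRing (B t)] {A : Type u} [NonUnitalCStarAlgebra A]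
  [PartialOrder A] [StarOrderedRing A]

omit [PartialOrder A] [StarOrderedRing A] in
theorem her_sum {a : A} {k : ℕ} {b : Fin k → A} (hb : ∀ i, b i ∈ Her a) :
    (∑ i, b i) ∈ Her a := by
  classical
  have hcl : ∀ (t : Finset (Fin k)), (∑ i ∈ t, b i) ∈ Her a := by
    intro t
    induction t using Finset.induction_on with
    | empty =>
      rw [Finset.sum_empty]
      exact subset_closure ⟨0, by simp⟩
    | insert i t hi ih =>
      rw [Finset.sum_insert hi]
      refine map_mem_closure₂ continuous_add (hb i) ih ?_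
      rintro _ ⟨w, rfl⟩ _ ⟨w', rfl⟩
      exact ⟨w + w', by simp [mul_add, add_mul]⟩
  exact hcl _

theorem nowhere_scalar_field [T2Space X] [LocallyCompactSpace X] (hX : PropertyC X)
    (hS : IsSectionAlgebra B A) (hPI : ∀ t, PurelyInfinite (B t))
    (hc : ∀ t, {Q : Submodule ℂ (B t) | IsPrimeIdeal Q}.Countable) {a : A} (ha : 0 ≤ a)
    {δ : ℝ} (hδ : 0 < δ) : ∃ d : A, IsSelfAdjoint d ∧ d ∈ Her a ∧
      ∀ P : Submodule ℂ A, IsClosedIdeal P → H28.cut a δ ∉ P → ∀ l : ℝ, d * a - l • a ∉ P := by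
  classical
  obtain ⟨π, hπs, hn, hu, hm⟩ := hS
  have hz : ∀ b : A, (∀ t, π t b = 0) → b = 0 := fun b hb => by
    have := hn b 0 le_rfl fun t => by rw [hb t, norm_zero]
    exact norm_le_zero_iff.1 this
  set K : Set X := {t | δ ≤ ‖π t a‖} with hK
  have hKc : IsCompact K := hu a δ hδ
  have h0 : (0 : A) ∈ {e : A | IsSelfAdjoint e ∧ e ∈ Her a} :=
    ⟨IsSelfAdjoint.zero A, subset_closure ⟨0, by simp⟩⟩
  obtain ⟨k, f, e, heS, hf, hG⟩ := select hX hKc (G := Gd π a δ) h0 (closed_bad hu hKc a hδ)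
    (fun x _ L _ => by
      obtain ⟨e, h1, h2⟩ := generic_at (hπs x) (hPI x) (hc x) ha hδ L
      exact ⟨e, h1, h2⟩)
  choose b hb using fun i => hm (f i) (hf i) (e i)
  have hbs : ∀ i, star (b i) = b i := by
    intro i
    rw [← sub_eq_zero]
    refine hz _ fun t => ?_
    rw [map_sub, map_star, hb, star_smul, ← map_star, (heS i).1.star_eq]
    simp
  have hbH : ∀ i, b i ∈ Her a := by
    intro i
    refine Metric.mem_closure_iff.2 fun ε hε => ?_
    obtain ⟨_, ⟨w, rfl⟩, h1⟩ := Metric.mem_closure_iff.1 (heS i).2 (ε / 2) (half_pos hε)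
    obtain ⟨w', hw'⟩ := hm (f i) (hf i) w
    refine ⟨a * w' * a, ⟨w', rfl⟩, ?_⟩
    rw [dist_eq_norm] at h1 ⊢
    have h2 : ‖b i - a * w' * a‖ ≤ ε / 2 := by
      refine hn _ _ (half_pos hε).le fun t => ?_
      have h3 : π t (b i - a * w' * a) = (f i t : ℂ) • π t (e i - a * w * a) := by
        rw [map_sub, map_mul, map_mul, hb, hw', map_sub, map_mul, map_mul, smul_sub,
          mul_smul_comm, smul_mul_assoc]
      rw [h3, norm_smul]
      have h4 : ‖((f i t : ℝ) : ℂ)‖ ≤ 1 := by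
        rw [Complex.norm_real, Real.norm_eq_abs, abs_of_nonneg (hf i t).1]
        exact (hf i t).2
      have h5 : ‖π t (e i - a * w * a)‖ ≤ ‖e i - a * w * a‖ :=
        NonUnitalStarAlgHom.norm_apply_le _ _
      nlinarith [norm_nonneg (π t (e i - a * w * a)), norm_nonneg ((f i t : ℝ) : ℂ)]
    linarith
  refine ⟨∑ i, b i, ?_, her_sum hbH, fun P hP hcut l hl => ?_⟩
  · show star (∑ i, b i) = ∑ i, b i
    rw [star_sum]
    exact Finset.sum_congr rfl fun i _ => hbs i
  obtain ⟨P', hP', hPP', hcut'⟩ := exists_primeIdeal hP (H28.cut_nonneg a δ) hcut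
  obtain ⟨x, hx⟩ := prime_over hn hu hm hP' ha hδ hcut'
  have hxK : x ∈ K := by
    by_contra hxK
    exact hcut' (hx _ (cut_eq_zero_of_norm (π x) ha hδ (le_of_lt (not_le.1 hxK))))
  refine hG x hxK P' hP'.1 hx (fun p hp => ?_) l ?_
  · by_contra hlt
    push Not at hlt
    exact hcut' (hP'.1.cut_mem ha hp hlt)
  · have h1 : (∑ i, b i) - ∑ i, f i x • e i ∈ P' := by
      refine hx _ ?_
      rw [map_sub, map_sum, map_sum, ← Finset.sum_sub_distrib]
      refine Finset.sum_eq_zero fun i _ => ?_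
      rw [hb, map_smul_real, ← Complex.coe_smul, sub_self]
    have h2 : (∑ i, f i x • e i) * a - l • a =
        ((∑ i, b i) * a - l • a) - ((∑ i, b i) - ∑ i, f i x • e i) * a := by
      rw [sub_mul]; abel
    rw [h2]
    exact P'.sub_mem (hPP' hl) (hP'.1.2 _ _ h1).2

theorem pi_of_field [T2Space X] [LocallyCompactSpace X] (hX : PropertyC X)
    (hS : IsSectionAlgebra B A) (hPI : ∀ t, PurelyInfinite (B t))
    (hc : ∀ t, {Q : Submodule ℂ (B t) | IsPrimeIdeal Q}.Countable)
    (hW : WeaklyPurelyInfinite A) : PurelyInfinite A :=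
  ((pi_iff_twoOrth hW).trans twoOrth_iff).2 fun _ ha _ hδ =>
    nowhere_scalar_field hX hS hPI hc ha hδ

theorem coincide_field [T2Space X] [LocallyCompactSpace X] (hX : PropertyC X)
    (hS : IsSectionAlgebra B A) (hC : ∀ t, Coincide (B t))
    (hc : ∀ t, {Q : Submodule ℂ (B t) | IsPrimeIdeal Q}.Countable) : Coincide A :=
  coincide_of fun hW => pi_of_field hX hS (fun t => by
    obtain ⟨π, hπ, -⟩ := hS
    exact (hC t).1.1 (wpi_of_surj (π t) (hπ t) hW)) hc hW

end

end Vale.Agent.P133.R2.H778
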