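import Vale.Agent.P133.H832.TameDef

/-!
P133 (helper778): prime ideals.
-/

namespace Vale.Agent.P133.R2.H778

open Vale.Agent.P133.H832

universe u

/-- `P` is a prime closed ideal of `A`: a closed two-sided ideal, not `A` itself, such that `c` or
`b` is in `P` whenever `c A b` is contained in `P`. -/
def IsPrimeIdeal {A : Type u} [NonUnitalCStarAlgebra A] (P : Submodule ℂ A) : Prop :=
  IsClosedIdeal P ∧ P ≠ ⊤ ∧ ∀ c b : A, (∀ w, c * w * b ∈ P) → c ∈ P ∨ b ∈ P

end Vale.Agent.P133.R2.H778
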