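import Vale.Agent.P133.R2.H778.Open
import Vale.Agent.P133.R2.H778.Prime

/-!
P133 (helper778): generic elements over a point with countably many prime ideals.
-/

open scoped ComplexOrder

namespace Vale.Agent.P133.R2.H778

open Vale.Agent.P133 Vale.Agent.P133.H832 Vale.Agent.P133.R2.H28 Set Filter Topology

universe u v

section

variable {A : Type u} [NonUnitalCStarAlgebra A] [PartialOrder A] [StarOrderedRing A]

/-- prime ideals through elements -/
theorem exists_primeIdeal {J : Submodule ℂ A} (hJ : IsClosedIdeal J) {a : A} (ha : 0 ≤ a)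
    (haJ : a ∉ J) : ∃ P : Submodule ℂ A, IsPrimeIdeal P ∧ J ≤ P ∧ a ∉ P := by
  obtain ⟨C, i1, i2, i3, φ, -, h1, h2, h3⟩ := exists_prime_quotient hJ ha haJ
  refine ⟨LinearMap.ker (φ : A →ₗ[ℂ] C), ⟨⟨?_, fun b x hx => ?_⟩, fun h => ?_, fun c b h => ?_⟩,
    fun x hx => by simpa using h1 x hx, by simpa using h2⟩
  · have : ((LinearMap.ker (φ : A →ₗ[ℂ] C) : Submodule ℂ A) : Set A) = φ ⁻¹' {0} := by
      ext x; simp
    rw [this]
    exact isClosed_singleton.preimage (map_continuous φ)
  · have hx' : φ x = 0 := by simpa using hx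
    constructor
    · simp [hx']
    · simp [hx']
  · have : a ∈ (⊤ : Submodule ℂ A) := Submodule.mem_top
    rw [← h] at this
    exact h2 (by simpa using this)
  · by_contra hcon
    push Not at hcon
    obtain ⟨w, hw⟩ := h3 c b (fun h => hcon.1 (by simpa using h)) (fun h => hcon.2 (by simpa using h))
    exact hw (by simpa using h w)

theorem her_of_mul {P : Submodule ℂ A} (hP : IsClosedIdeal P) {a y : A} (ha : 0 ≤ a)
    (hy : y ∈ Her a) (h : a * y * a ∈ P) : y ∈ P := by
  have hs : star a = a := (IsSelfAdjoint.of_nonneg ha).star_eq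
  -- z * y * z' ∈ P for z, z' in Her a
  have h1 : ∀ w w' : A, (a * w * a) * y * (a * w' * a) ∈ P := by
    intro w w'
    have : (a * w * a) * y * (a * w' * a) = (a * w) * (a * y * a) * (w' * a) := by
      simp only [mul_assoc]
    rw [this]
    exact (hP.2 _ _ (hP.2 _ _ h).1).2
  have h2 : ∀ w : A, ∀ z' ∈ Her a, (a * w * a) * y * z' ∈ P := by
    intro w z' hz'
    have hc : Continuous fun z' : A => (a * w * a) * y * z' := by fun_prop
    have := map_mem_closure (t := (P : Set A)) hc hz' (by
      rintro _ ⟨w', rfl⟩; exact h1 w w')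
    rwa [hP.1.closure_eq] at this
  have h3 : ∀ z ∈ Her a, ∀ z' ∈ Her a, z * y * z' ∈ P := by
    intro z hz z' hz'
    have hc : Continuous fun z : A => z * y * z' := by fun_prop
    have := map_mem_closure (t := (P : Set A)) hc hz (by
      rintro _ ⟨w', rfl⟩; exact h2 w' z' hz')
    rwa [hP.1.closure_eq] at this
  have hys : star y ∈ Her a := by
    have := map_mem_closure (f := star) (t := Set.range fun w => a * w * a) continuous_star hy (by
      rintro _ ⟨w, rfl⟩
      exact ⟨star w, by simp only [star_mul, hs, mul_assoc]⟩)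
    exact this
  have h4 := h3 _ hys _ hys
  refine hP.of_star_mul_self (hP.of_star_mul_self ?_)
  have h5 : star (star y * y) * (star y * y) = star y * y * star y * y := by
    rw [star_mul, star_star]; simp only [mul_assoc]
  rw [h5]
  exact (hP.2 _ _ h4).2

end

section

variable {A : Type u} [NonUnitalCStarAlgebra A] [PartialOrder A] [StarOrderedRing A]

/-- the linear algebra: finitely many orthogonal elements modulo one closed ideal -/
theorem proper_bad {N : ℕ} {y : Fin N → A} {a : A} (ha : 0 ≤ a) (hy0 : ∀ i, 0 ≤ y i)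
    (hyo : ∀ i j, i ≠ j → y i * y j = 0) (hyH : ∀ i, y i ∈ Her a) {P : Submodule ℂ A}
    (hP : IsClosedIdeal P) (hyP : ∀ i, y i ∉ P) (L : Submodule ℝ A) [FiniteDimensional ℝ L]
    (hN : Module.finrank ℝ L + 1 < N) :
    ∃ W : Submodule ℝ (Fin N → ℝ), W ≠ ⊤ ∧ ∀ c : Fin N → ℝ, ∀ l ∈ L, ∀ s : ℝ,
      (l + a * (∑ i, c i • y i) * a) * a - s • a ∈ P → c ∈ W := by
  classical
  let Pr : Submodule ℝ A := P.restrictScalars ℝ
  have hPr : ∀ x, x ∈ Pr ↔ x ∈ P := fun x => Iff.rfl
  let mulA : A →ₗ[ℝ] A := LinearMap.mulRight ℝ a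
  let T0 : (Fin N → ℝ) →ₗ[ℝ] A :=
    { toFun := fun c => a * (∑ i, c i • y i) * a * a
      map_add' := by
        intro c c'
        simp only [Pi.add_apply, add_smul, Finset.sum_add_distrib, mul_add, add_mul]
      map_smul' := by
        intro r c
        simp only [Pi.smul_apply, smul_eq_mul, mul_smul, ← Finset.smul_sum, mul_smul_comm,
          smul_mul_assoc, RingHom.id_apply] }
  let U0 : (L × ℝ) →ₗ[ℝ] A :=
    { toFun := fun q => q.2 • a - (q.1 : A) * a
      map_add' := by
        intro q q'
        simp only [Prod.snd_add, Prod.fst_add, add_smul, Submodule.coe_add, add_mul]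
        abel
      map_smul' := by
        intro r q
        simp only [Prod.smul_snd, Prod.smul_fst, smul_eq_mul, mul_smul, Submodule.coe_smul,
          smul_mul_assoc, RingHom.id_apply, smul_sub] }
  let T : (Fin N → ℝ) →ₗ[ℝ] (A ⧸ Pr) := Pr.mkQ.comp T0
  let U : (L × ℝ) →ₗ[ℝ] (A ⧸ Pr) := Pr.mkQ.comp U0
  have hinj : Function.Injective T := by
    rw [injective_iff_map_eq_zero]
    intro c hc
    have h1 : T0 c ∈ P := by
      have : Pr.mkQ (T0 c) = 0 := hc
      rwa [Submodule.mkQ_apply, Submodule.Quotient.mk_eq_zero] at this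
    have h2 : a * (∑ i, c i • y i) * a * a ∈ P := h1
    set Y : A := ∑ i, c i • y i with hY
    have hYH : Y ∈ Her a := by
      have hcl : ∀ (t : Finset (Fin N)), (∑ i ∈ t, c i • y i) ∈ Her a := by
        intro t
        induction t using Finset.induction_on with
        | empty =>
          rw [Finset.sum_empty]
          exact subset_closure ⟨0, by simp⟩
        | insert i t hi ih =>
          rw [Finset.sum_insert hi]
          have h3 : c i • y i ∈ Her a := by
            refine map_mem_closure (f := fun z : A => c i • z) (continuous_const_smul _) (hyH i) ?_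
            rintro _ ⟨w, rfl⟩
            exact ⟨c i • w, by simp [mul_smul_comm, smul_mul_assoc]⟩
          refine map_mem_closure₂ continuous_add h3 ih ?_
          rintro _ ⟨w, rfl⟩ _ ⟨w', rfl⟩
          exact ⟨w + w', by simp [mul_add, add_mul]⟩
      exact hcl _
    have hs : star a = a := (IsSelfAdjoint.of_nonneg ha).star_eq
    have hYs : star Y = Y := by
      rw [hY, star_sum]
      refine Finset.sum_congr rfl fun i _ => ?_
      rw [star_smul, star_trivial, (IsSelfAdjoint.of_nonneg (hy0 i)).star_eq]
    -- a Y a ∈ P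
    have h3 : a * Y * a ∈ P := by
      refine hP.of_star_mul_self (hP.of_star_mul_self ?_)
      have h4 : star (a * Y * a) = a * Y * a := by
        simp only [star_mul, hs, hYs, mul_assoc]
      rw [star_mul, star_star, h4]
      have h5 : a * Y * a * (a * Y * a) * (a * Y * a * (a * Y * a)) =
          (a * Y * a * a) * (Y * a * (a * Y * a * (a * Y * a))) := by simp only [mul_assoc]
      rw [h5]
      exact (hP.2 _ _ h2).2
    have h6 : Y ∈ P := her_of_mul hP ha hYH h3
    funext j
    by_contra hne
    have hne' : c j ≠ 0 := hne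
    apply hyP j
    have h7 : Y * y j = c j • (y j * y j) := by
      rw [hY, Finset.sum_mul, Finset.sum_eq_single j]
      · rw [smul_mul_assoc]
      · intro i _ hij
        rw [smul_mul_assoc, hyo i j hij, smul_zero]
      · intro h; exact absurd (Finset.mem_univ j) h
    have h8 : y j * y j ∈ P := by
      have h9 : y j * y j = (((c j)⁻¹ : ℝ) : ℂ) • (Y * y j) := by
        rw [h7, Complex.coe_smul, smul_smul, inv_mul_cancel₀ hne', one_smul]
      rw [h9]
      exact P.smul_mem _ (hP.2 _ _ h6).2
    refine hP.of_star_mul_self ?_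
    rwa [(IsSelfAdjoint.of_nonneg (hy0 j)).star_eq]
  refine ⟨(LinearMap.range U).comap T, fun htop => ?_, fun c l hl s h => ?_⟩
  · have h1 : LinearMap.range T ≤ LinearMap.range U := by
      rintro _ ⟨c, rfl⟩
      have : c ∈ (LinearMap.range U).comap T := by rw [htop]; trivial
      exact this
    have h2 : Module.finrank ℝ (LinearMap.range T) = N := by
      rw [LinearMap.finrank_range_of_inj hinj]; simp
    have h3 : Module.finrank ℝ (LinearMap.range U) ≤ Module.finrank ℝ L + 1 := by
      refine (LinearMap.finrank_range_le U).trans ?_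
      rw [Module.finrank_prod, Module.finrank_self]
    have h4 := Submodule.finrank_mono h1
    omega
  · show T c ∈ LinearMap.range U
    refine ⟨(⟨l, hl⟩, s), ?_⟩
    show Pr.mkQ (s • a - l * a) = Pr.mkQ (a * (∑ i, c i • y i) * a * a)
    rw [← sub_eq_zero, ← map_sub, Submodule.mkQ_apply, Submodule.Quotient.mk_eq_zero, hPr]
    have h5 : s • a - l * a - a * (∑ i, c i • y i) * a * a =
        -((l + a * (∑ i, c i • y i) * a) * a - s • a) := by
      rw [add_mul]; abel
    rw [h5]
    exact P.neg_mem h

end

end Vale.Agent.P133.R2.H778
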