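import Vale.Agent.P133.R2.H778.Gen

/-!
P133 (helper778): generic elements over a point with countably many prime ideals, and prime ideals
of section algebras.
-/

open scoped ComplexOrder

namespace Vale.Agent.P133.R2.H778

open Vale.Agent.P133 Vale.Agent.P133.Statement Vale.Agent.P133.H832 Vale.Agent.P133.R2.H28
  Vale.Agent.P133F Set Filter Topology

universe u v

theorem exists_generic {N : ℕ} {ι : Type*} [Countable ι] (W : ι → Submodule ℝ (Fin N → ℝ))
    (hW : ∀ i, W i ≠ ⊤) : ∃ c : Fin N → ℝ, ∀ i, c ∉ W i := by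
  by_contra hcon
  push Not at hcon
  have h1 : (⋃ i, (W i : Set (Fin N → ℝ))) = univ :=
    eq_univ_of_forall fun c => mem_iUnion.2 (hcon c)
  have h2 : MeasureTheory.volume (⋃ i, (W i : Set (Fin N → ℝ))) = 0 :=
    MeasureTheory.measure_iUnion_null fun i =>
      MeasureTheory.Measure.addHaar_submodule _ _ (hW i)
  rw [h1] at h2
  exact (isOpen_univ.measure_pos MeasureTheory.volume univ_nonempty).ne' h2

section

variable {A : Type u} [NonUnitalCStarAlgebra A] [PartialOrder A] [StarOrderedRing A]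
  {C : Type u} [NonUnitalCStarAlgebra C] [PartialOrder C] [StarOrderedRing C]

theorem map_nonneg' (φ : A →⋆ₙₐ[ℂ] C) {a : A} (ha : 0 ≤ a) : 0 ≤ φ a := by
  have h1 : a = star (CFC.sqrt a) * CFC.sqrt a := by
    rw [(IsSelfAdjoint.of_nonneg (CFC.sqrt_nonneg a)).star_eq, CFC.sqrt_mul_sqrt_self a ha]
  rw [h1, map_mul, map_star]
  exact star_mul_self_nonneg _

theorem map_cut (φ : A →⋆ₙₐ[ℂ] C) {a : A} (ha : 0 ≤ a) {δ : ℝ} (hδ : 0 < δ) :
    φ (H28.cut a δ) = H28.cut (φ a) δ := by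
  have hf : Continuous (fun t : ℝ => max (t - δ) 0) := by fun_prop
  have hf0 : (fun t : ℝ => max (t - δ) 0) 0 = 0 := by
    simp only [zero_sub]; exact max_eq_right (by linarith)
  exact NonUnitalStarAlgHomClass.map_cfcₙ φ _ a (hf := hf.continuousOn) (hf₀ := hf0)
      (hφ := map_continuous φ) (ha := IsSelfAdjoint.of_nonneg ha)
      (hφa := IsSelfAdjoint.of_nonneg (map_nonneg' φ ha))

theorem map_smul_real (φ : A →⋆ₙₐ[ℂ] C) (r : ℝ) (x : A) : φ (r • x) = r • φ x := by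
  rw [← Complex.coe_smul, map_smul, Complex.coe_smul]

theorem cut_eq_zero_of_norm (φ : A →⋆ₙₐ[ℂ] C) {a : A} (ha : 0 ≤ a) {δ : ℝ} (hδ : 0 < δ)
    (h : ‖φ a‖ ≤ δ) : φ (H28.cut a δ) = 0 := by
  have hker := cut_mem_of_norm (P := LinearMap.ker (φ : A →ₗ[ℂ] C)) ha hδ φ (fun k => by simp) h
  simpa [H28.cut] using hker

/-- the image of a prime ideal which contains the kernel -/
theorem map_prime (φ : A →⋆ₙₐ[ℂ] C) (hφ : Function.Surjective φ) {P : Submodule ℂ A}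
    (hP : IsPrimeIdeal P) (hk : ∀ k, φ k = 0 → k ∈ P) :
    ∃ Q : Submodule ℂ C, IsPrimeIdeal Q ∧ ∀ k, φ k ∈ Q ↔ k ∈ P := by
  have hmem : ∀ k, φ k ∈ P.map (φ : A →ₗ[ℂ] C) ↔ k ∈ P := by
    intro k
    constructor
    · rintro ⟨k', hk', h⟩
      have h1 : φ (k - k') = 0 := by
        rw [map_sub, sub_eq_zero]; exact h.symm
      have := P.add_mem (hk _ h1) hk'
      rwa [sub_add_cancel] at this
    · exact fun h => ⟨k, h, rfl⟩
  refine ⟨P.map (φ : A →ₗ[ℂ] C), ⟨⟨?_, fun b y hy => ?_⟩, fun h => ?_, fun c b h => ?_⟩, hmem⟩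
  · let ψ : A →L[ℂ] C := ⟨(φ : A →ₗ[ℂ] C), map_continuous φ⟩
    have ho : IsOpenMap ψ := ψ.isOpenMap hφ
    have hq : Topology.IsQuotientMap ψ := ho.isQuotientMap ψ.continuous hφ
    rw [← hq.isClosed_preimage]
    have : ψ ⁻¹' (P.map (φ : A →ₗ[ℂ] C) : Set C) = P := by
      ext k; exact hmem k
    rw [this]
    exact hP.1.1
  · obtain ⟨b', rfl⟩ := hφ b
    obtain ⟨y', rfl⟩ := hφ y
    have h1 := (hmem y').1 hy
    rw [← map_mul, ← map_mul]
    exact ⟨(hmem _).2 (hP.1.2 _ _ h1).1, (hmem _).2 (hP.1.2 _ _ h1).2⟩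
  · apply hP.2.1
    refine eq_top_iff.2 fun k _ => (hmem k).1 ?_
    rw [h]; trivial
  · obtain ⟨c', rfl⟩ := hφ c
    obtain ⟨b', rfl⟩ := hφ b
    have h1 : ∀ w, c' * w * b' ∈ P := fun w => by
      rw [← hmem, map_mul, map_mul]; exact h _
    exact (hP.2.2 _ _ h1).imp (hmem _).2 (hmem _).2

end

section

variable {X : Type v} [TopologicalSpace X] {B : X → Type u} [∀ t, NonUnitalCStarAlgebra (B t)]
  [∀ t, PartialOrder (B t)] [∀ t, StarOrderedRing (B t)] {A : Type u} [NonUnitalCStarAlgebra A]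
  [PartialOrder A] [StarOrderedRing A]

theorem generic_at {π : ∀ t, A →⋆ₙₐ[ℂ] B t} {x : X} (hsurj : Function.Surjective (π x))
    (hPI : PurelyInfinite (B x)) (hcount : {Q : Submodule ℂ (B x) | IsPrimeIdeal Q}.Countable)
    {a : A} (ha : 0 ≤ a) {δ : ℝ} (hδ : 0 < δ) (L : Submodule ℝ A) [FiniteDimensional ℝ L] :
    ∃ e, (IsSelfAdjoint e ∧ e ∈ Her a) ∧ ∀ l ∈ L, ∀ m : ℝ, 0 < m → Gd π a δ x (l + m • e) := by
  classical
  set φ := π x with hφ
  let φR : A →ₗ[ℝ] B x :=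
    { toFun := φ
      map_add' := map_add φ
      map_smul' := fun r y => map_smul_real φ r y }
  let L' : Submodule ℝ (B x) := L.map φR
  have hfa : 0 ≤ φ a := map_nonneg' φ ha
  set N : ℕ := Module.finrank ℝ L' + 2 with hN
  obtain ⟨y', hy0', hyo', hyH', hyI'⟩ := iter (twoOrth_of_eltPI (eltPI_of (B x) hPI)) N (φ a) hfa
    (δ / 2) (by positivity)
  obtain ⟨j⟩ : Nonempty (Fin N ↪ Mult N) := by
    apply Function.Embedding.nonempty_of_card_le
    rw [Fintype.card_fin, Mult.card]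
    exact Nat.lt_two_pow_self.le
  let y : Fin N → B x := fun i => y' (j i)
  have hy0 : ∀ i, 0 ≤ y i := fun i => hy0' _
  have hyo : ∀ i i', i ≠ i' → y i * y i' = 0 := fun i i' h => hyo' _ _ fun h' => h (j.injective h')
  have hyH : ∀ i, y i ∈ Her (φ a) := fun i => hyH' _
  let I : Type u := {Q : Submodule ℂ (B x) // IsPrimeIdeal Q}
  have : Countable I := hcount.to_subtype
  have hbad : ∀ Q : I, ∃ W : Submodule ℝ (Fin N → ℝ), W ≠ ⊤ ∧ ((∀ i, y i ∉ Q.1) →
      ∀ c : Fin N → ℝ, ∀ l ∈ L', ∀ s : ℝ,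
      (l + φ a * (∑ i, c i • y i) * φ a) * φ a - s • φ a ∈ Q.1 → c ∈ W) := by
    intro Q
    by_cases hyP : ∀ i, y i ∉ Q.1
    · obtain ⟨W, h1, h2⟩ := proper_bad hfa hy0 hyo hyH Q.2.1 hyP L' (by omega)
      exact ⟨W, h1, fun _ => h2⟩
    · refine ⟨⊥, fun h => ?_, fun h => absurd h hyP⟩
      have h1 : Module.finrank ℝ (⊥ : Submodule ℝ (Fin N → ℝ)) = N := by
        rw [h]; simp
      rw [finrank_bot] at h1
      omega
  choose W hW1 hW2 using hbad
  obtain ⟨c, hc⟩ := exists_generic W hW1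
  set Y : B x := ∑ i, c i • y i with hY
  have hYs : star Y = Y := by
    rw [hY, star_sum]
    refine Finset.sum_congr rfl fun i _ => ?_
    rw [star_smul, star_trivial, (IsSelfAdjoint.of_nonneg (hy0 i)).star_eq]
  obtain ⟨v0, hv0⟩ := hsurj Y
  set z : A := (2⁻¹ : ℝ) • (v0 + star v0) with hz
  have hzs : star z = z := by
    rw [hz, star_smul, star_trivial, star_add, star_star, add_comm]
  have hzY : φ z = Y := by
    rw [hz, map_smul_real, map_add, map_star, hv0, hYs, ← two_smul ℝ Y, smul_smul]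
    norm_num
  have hsa : star a = a := (IsSelfAdjoint.of_nonneg ha).star_eq
  refine ⟨a * z * a, ⟨?_, subset_closure ⟨z, rfl⟩⟩, fun l hl m hm P hP hker hdist s hmem => ?_⟩
  · show star (a * z * a) = a * z * a
    simp only [star_mul, hsa, hzs, mul_assoc]
  have hcutP : H28.cut a (δ / 2) ∉ P := by
    intro h
    have h1 := hdist _ h
    have h2 := norm_cut_sub_le ha (half_pos hδ)
    rw [← norm_neg, neg_sub] at h1
    linarith
  obtain ⟨P', hP', hPP', hcut'⟩ := exists_primeIdeal hP (H28.cut_nonneg a (δ / 2)) hcutP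
  obtain ⟨Q, hQ, hQm⟩ := map_prime φ hsurj hP' (fun k hk => hPP' (hker k hk))
  have hyQ : ∀ i, y i ∉ Q := by
    intro i hi
    have h1 := hQ.1.inId hi (hyI' (j i))
    rw [← map_cut φ ha (half_pos hδ)] at h1
    exact hcut' ((hQm _).1 h1)
  refine hc ⟨Q, hQ⟩ (hW2 ⟨Q, hQ⟩ hyQ c (m⁻¹ • φ l) (L'.smul_mem _ ⟨l, hl, rfl⟩) (m⁻¹ * s) ?_)
  have h1 := (hQm _).2 (hPP' hmem)
  have h2 : (m⁻¹ • φ l + φ a * (∑ i, c i • y i) * φ a) * φ a - (m⁻¹ * s) • φ a =
      ((m⁻¹ : ℝ) : ℂ) • φ ((l + m • (a * z * a)) * a - s • a) := by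
    rw [Complex.coe_smul, map_sub, map_mul, map_add, map_smul_real, map_smul_real, map_mul,
      map_mul, hzY, ← hY, smul_sub, smul_smul, ← smul_mul_assoc, smul_add, smul_smul,
      inv_mul_cancel₀ hm.ne', one_smul]
  rw [h2]
  exact Q.smul_mem _ h1

theorem prime_over [T2Space X] [LocallyCompactSpace X] {π : ∀ t, A →⋆ₙₐ[ℂ] B t}
    (hn : ∀ (a : A) (r : ℝ), 0 ≤ r → (∀ t, ‖π t a‖ ≤ r) → ‖a‖ ≤ r)
    (hu : ∀ (a : A) (r : ℝ), 0 < r → IsCompact {t | r ≤ ‖π t a‖})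
    (hm : ∀ f : C(X, ℝ), (∀ t, 0 ≤ f t ∧ f t ≤ 1) → ∀ a : A, ∃ b : A, ∀ t,
      π t b = (f t : ℂ) • π t a)
    {P : Submodule ℂ A} (hP : IsPrimeIdeal P) {a : A} (ha : 0 ≤ a) {δ : ℝ} (hδ : 0 < δ)
    (hcut : H28.cut a δ ∉ P) : ∃ x, ∀ k, π x k = 0 → k ∈ P := by
  classical
  by_contra hcon
  push Not at hcon
  have hz : ∀ b : A, (∀ t, π t b = 0) → b = 0 := fun b hb => by
    have := hn b 0 le_rfl fun t => by rw [hb t, norm_zero]
    exact norm_le_zero_iff.1 this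
  have h1 : ∀ x, ∃ (k : A) (ε : ℝ), 0 ≤ k ∧ 0 < ε ∧ π x k = 0 ∧ H28.cut k ε ∉ P := by
    intro x
    obtain ⟨k, hk, hkP⟩ := hcon x
    have hkk : star k * k ∉ P := fun h => hkP (hP.1.of_star_mul_self h)
    by_contra hno
    push Not at hno
    refine hkk (hP.1.lim fun ε hε => ?_)
    refine ⟨H28.cut (star k * k) (ε / 2), hno _ _ (star_mul_self_nonneg k) (half_pos hε) ?_, ?_⟩
    · rw [map_mul, hk, mul_zero]
    · have := norm_cut_sub_le (star_mul_self_nonneg k) (half_pos hε)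
      linarith
  choose k ε hk0 hε hkx hkP using h1
  set K : Set X := {t | δ ≤ ‖π t a‖} with hK
  have hKc : IsCompact K := hu a δ hδ
  have hNo : ∀ x, IsOpen {t | ε x ≤ ‖π t (k x)‖}ᶜ := fun x => (hu _ _ (hε x)).isClosed.isOpen_compl
  obtain ⟨T, -, hT⟩ := hKc.elim_nhds_subcover (fun x => {t | ε x ≤ ‖π t (k x)‖}ᶜ)
    (fun x _ => (hNo x).mem_nhds (by
      simp only [mem_compl_iff, mem_ofPred_eq, not_le, hkx, norm_zero]; exact hε x))
  let q : Fin T.card → X := fun i => (T.equivFin.symm i : X)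
  have hcov : K ⊆ ⋃ i : Fin T.card, {t | ε (q i) ≤ ‖π t (k (q i))‖}ᶜ := by
    intro x hx
    have h2 := hT hx
    simp only [mem_iUnion] at h2 ⊢
    obtain ⟨i, hi, hxi⟩ := h2
    refine ⟨T.equivFin ⟨i, hi⟩, ?_⟩
    simpa [q] using hxi
  obtain ⟨f, hf1, hf2, hf3, -⟩ := exists_continuous_sum_one_of_isOpen_isCompact
    (fun i => hNo (q i)) hKc hcov
  choose b hb using fun i => hm (f i) (fun t => ⟨(hf3 i t).1, (hf3 i t).2⟩) (H28.cut a δ)
  have hbP : ∀ i, b i ∈ P := by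
    intro i
    refine (hP.2.2 (b i) (H28.cut (k (q i)) (ε (q i))) fun w => ?_).resolve_right (hkP _)
    have h3 : b i * w * H28.cut (k (q i)) (ε (q i)) = 0 := by
      refine hz _ fun t => ?_
      rw [map_mul, map_mul, hb]
      by_cases hft : f i t = 0
      · rw [hft]; simp
      · have h4 : t ∈ {t | ε (q i) ≤ ‖π t (k (q i))‖}ᶜ := hf1 i (subset_tsupport _ hft)
        simp only [mem_compl_iff, mem_ofPred_eq, not_le] at h4
        rw [cut_eq_zero_of_norm (π t) (hk0 _) (hε _) h4.le, mul_zero]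
    rw [h3]
    exact P.zero_mem
  apply hcut
  have h5 : H28.cut a δ = ∑ i, b i := by
    rw [← sub_eq_zero]
    refine hz _ fun t => ?_
    rw [map_sub, map_sum]
    simp only [hb]
    by_cases ht : t ∈ K
    · have h6 := hf2 ht
      simp only [Finset.sum_apply, Pi.one_apply] at h6
      rw [← Finset.sum_smul, ← Complex.ofReal_sum, h6, Complex.ofReal_one, one_smul, sub_self]
    · have h7 : π t (H28.cut a δ) = 0 :=
        cut_eq_zero_of_norm (π t) ha hδ (le_of_lt (not_le.1 ht))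
      simp [h7]
  rw [h5]
  exact P.sum_mem fun i _ => hbP i

end

end Vale.Agent.P133.R2.H778
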