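import Vale.Agent.P133.R2.H810.CFinal
import Vale.Agent.P133.R2.H778.PiGen

/-!
P133 (helper778, helper810): upper semicontinuous fields over locally compact Hausdorff spaces
whose compact subsets have property C.
-/

namespace Vale.Agent.P133.R2.H778

open Vale.Agent.P133.Statement Vale.Agent.P133.H832 Vale.Agent.P133.H681

universe u v

variable {X : Type v} [TopologicalSpace X] {B : X → Type u} [∀ t, NonUnitalCStarAlgebra (B t)]
  [∀ t, PartialOrder (B t)] [∀ t, StarOrderedRing (B t)] {A : Type u} [NonUnitalCStarAlgebra A]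
  [PartialOrder A] [StarOrderedRing A]

theorem general_field [T2Space X] [LocallyCompactSpace X]
    (hX : ∀ K : Set X, IsCompact K → PropertyC K) (hS : IsSectionAlgebra B A) :
    (PurelyInfinite A ↔ ∀ t, PurelyInfinite (B t)) ∧ ((∀ t, Coincide (B t)) → Coincide A) := by
  have key : (∀ t, PurelyInfinite (B t)) → PurelyInfinite A := fun hPI =>
    pi_of_twoOrth_fields hX hS (Vale.Agent.P133.R2.H810.twoOrth_of_sectionAlgebra hX hS hPI) hPI
  refine ⟨⟨fun hA t => fibres_pi hS hA t, key⟩, fun hC => coincide_of fun hW => key fun t => ?_⟩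
  obtain ⟨π, hπ, -⟩ := hS
  exact (hC t).1.1 (wpi_of_surj (π t) (hπ t) hW)

end Vale.Agent.P133.R2.H778
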