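import Vale.Agent.P133.R2.H778.PropC
import Mathlib

/-!
P133 (helper778): a selection theorem over compact subsets of spaces with property C.
-/

namespace Vale.Agent.P133.R2.H778

open Set

universe u v

section

variable {X : Type v} [TopologicalSpace X] [T2Space X] [LocallyCompactSpace X]
  {E : Type u} [NormedAddCommGroup E] [NormedSpace ℝ E]

/-- a stage of the construction -/
structure St (K : Set X) (G : X → E → Prop) where
  g : Set (X × E)
  l : Submodule ℝ E
  hc : IsCompact g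
  hg : ∀ p ∈ g, p.1 ∈ K ∧ p.2 ∈ l ∧ G p.1 p.2
  hf : FiniteDimensional ℝ l

theorem step {K : Set X} (hK : IsCompact K) {G : X → E → Prop} {S : Set E} (h0 : (0 : E) ∈ S)
    (hcl : IsClosed {p : X × E | p.1 ∈ K ∧ ¬ G p.1 p.2})
    (hgen : ∀ x ∈ K, ∀ L : Submodule ℝ E, FiniteDimensional ℝ L → ∃ e ∈ S, ∀ l ∈ L, ∀ m : ℝ,
      0 < m → G x (l + m • e)) (s : St K G) :
    ∃ (s' : St K G) (U : Set (Set X)) (e : Set X → E), (∀ u ∈ U, IsOpen u) ∧ ⋃₀ U = univ ∧
      s.g ⊆ s'.g ∧ (∀ u, e u ∈ S) ∧ ∀ u ∈ U, ∀ x ∈ u, x ∈ K → (x, e u) ∈ s'.g ∧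
        ∀ (z : E) (r : ℝ), (x, z) ∈ s.g → 0 ≤ r → r ≤ 1 → (x, (1 - r) • z + r • e u) ∈ s'.g := by
  classical
  have := s.hf
  -- the generic elements
  have h1 : ∀ x : X, ∃ e : E, ∃ C : Set X, e ∈ S ∧ IsCompact C ∧ (x ∈ K → C ∈ nhds x) ∧
      (∀ y ∈ C, y ∈ K → G y e ∧ ∀ (z : E) (r : ℝ), (y, z) ∈ s.g → 0 ≤ r → r ≤ 1 →
        G y ((1 - r) • z + r • e)) := by
    intro x
    by_cases hx : x ∈ K
    · obtain ⟨e, he, hG⟩ := hgen x hx s.l s.hf
      set Bad : Set (X × E) := {p : X × E | p.1 ∈ K ∧ ¬ G p.1 p.2} with hBad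
      have c1 : IsClosed {y : X | (y, e) ∈ Bad} := hcl.preimage (by fun_prop)
      set T : Set ((X × E) × ℝ) := (s.g ×ˢ Icc (0 : ℝ) 1) ∩
        (fun q : (X × E) × ℝ => (q.1.1, (1 - q.2) • q.1.2 + q.2 • e)) ⁻¹' Bad with hT
      have c2 : IsCompact T := (s.hc.prod isCompact_Icc).inter_right (hcl.preimage (by fun_prop))
      have c3 : IsClosed ((fun q : (X × E) × ℝ => q.1.1) '' T) :=
        (c2.image (by fun_prop)).isClosed
      have hx1 : x ∉ {y : X | (y, e) ∈ Bad} ∪ (fun q : (X × E) × ℝ => q.1.1) '' T := by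
        rintro (h | ⟨⟨⟨y, z⟩, r⟩, ⟨⟨hq1, hq2⟩, hq3⟩, rfl⟩)
        · apply h.2
          have := hG 0 s.l.zero_mem 1 one_pos
          simpa using this
        · apply hq3.2
          obtain ⟨g1, g2, g3⟩ := s.hg _ hq1
          rcases hq2.1.eq_or_lt with h | h
          · simp only at h ⊢
            rw [← h]
            simpa using g3
          · exact hG _ (s.l.smul_mem _ g2) _ h
      obtain ⟨C, hC, hCx, hCs⟩ := exists_compact_subset (c1.union c3).isOpen_compl hx1
      refine ⟨e, C, he, hC, fun _ => mem_interior_iff_mem_nhds.1 hCx, fun y hy hyK => ?_⟩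
      have h2 := hCs hy
      simp only [mem_compl_iff, mem_union, not_or] at h2
      refine ⟨?_, fun z r hz hr0 hr1 => ?_⟩
      · by_contra hn
        exact h2.1 ⟨hyK, hn⟩
      · by_contra hn
        exact h2.2 ⟨((y, z), r), ⟨⟨hz, hr0, hr1⟩, ⟨hyK, hn⟩⟩, rfl⟩
    · exact ⟨0, ∅, h0, isCompact_empty, fun h => absurd h hx, fun y hy => absurd hy (by simp)⟩
  choose e C he hC hCn hCG using h1
  obtain ⟨t', ht'K, ht'⟩ := hK.elim_nhds_subcover (fun x => interior (C x))
    (fun x hx => interior_mem_nhds.2 (hCn x hx))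
  let U : Set (Set X) := insert Kᶜ ((fun x => interior (C x)) '' (t' : Set X))
  let e' : Set X → E := fun u => if h : ∃ x ∈ t', u = interior (C x) then e h.choose else 0
  let g' : Set (X × E) := s.g ∪ ⋃ x ∈ t', ((fun y : X => (y, e x)) '' (C x ∩ K) ∪
    (fun q : (X × E) × ℝ => (q.1.1, (1 - q.2) • q.1.2 + q.2 • e x)) ''
      ((s.g ∩ (Prod.fst ⁻¹' (C x))) ×ˢ Icc (0 : ℝ) 1))
  let l' : Submodule ℝ E := s.l ⊔ Submodule.span ℝ (e '' (t' : Set X))
  have hfd : FiniteDimensional ℝ l' := by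
    have : FiniteDimensional ℝ (Submodule.span ℝ (e '' (t' : Set X))) :=
      FiniteDimensional.span_of_finite ℝ (t'.finite_toSet.image e)
    exact Submodule.finiteDimensional_sup _ _
  have hel : ∀ x ∈ t', e x ∈ l' := fun x hx =>
    Submodule.mem_sup_right (Submodule.subset_span ⟨x, hx, rfl⟩)
  have hgc : IsCompact g' := by
    refine s.hc.union (t'.finite_toSet.isCompact_biUnion fun x _ => ?_)
    refine (((hC x).inter hK).image (by fun_prop)).union ?_
    have c4 : IsCompact (s.g ∩ (Prod.fst ⁻¹' (C x))) :=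
      s.hc.inter_right ((hC x).isClosed.preimage continuous_fst)
    exact (c4.prod isCompact_Icc).image (by fun_prop)
  have hgg : ∀ p ∈ g', p.1 ∈ K ∧ p.2 ∈ l' ∧ G p.1 p.2 := by
    rintro p (hp | hp)
    · obtain ⟨g1, g2, g3⟩ := s.hg _ hp
      exact ⟨g1, Submodule.mem_sup_left g2, g3⟩
    · simp only [mem_iUnion] at hp
      obtain ⟨x, hx, hp⟩ := hp
      rcases hp with ⟨y, ⟨hy1, hy2⟩, rfl⟩ | ⟨⟨⟨y, z⟩, r⟩, ⟨⟨⟨hq1, hq2⟩, hq3⟩, rfl⟩⟩
      · exact ⟨hy2, hel x hx, (hCG x y hy1 hy2).1⟩
      · obtain ⟨g1, g2, g3⟩ := s.hg _ hq1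
        exact ⟨g1, l'.add_mem (l'.smul_mem _ (Submodule.mem_sup_left g2))
          (l'.smul_mem _ (hel x hx)), (hCG x y hq2 g1).2 z r hq1 hq3.1 hq3.2⟩
  refine ⟨⟨g', l', hgc, hgg, hfd⟩, U, e', ?_, ?_, subset_union_left, ?_, ?_⟩
  · rintro u (rfl | ⟨x, -, rfl⟩)
    · exact hK.isClosed.isOpen_compl
    · exact isOpen_interior
  · refine eq_univ_of_forall fun x => ?_
    by_cases hx : x ∈ K
    · have := ht' hx
      simp only [mem_iUnion] at this
      obtain ⟨y, hy, hxy⟩ := this
      exact ⟨_, mem_insert_of_mem _ ⟨y, hy, rfl⟩, hxy⟩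
    · exact ⟨Kᶜ, mem_insert _ _, hx⟩
  · intro u
    by_cases h : ∃ x ∈ t', u = interior (C x)
    · simp only [e', dif_pos h]; exact he _
    · simp only [e', dif_neg h]; exact h0
  · rintro u (rfl | hu) x hxu hxK
    · exact absurd hxK hxu
    · obtain ⟨y, hy, hyu⟩ := hu
      have h : ∃ x ∈ t', u = interior (C x) := ⟨y, hy, hyu.symm⟩
      have he' : e' u = e h.choose := by simp only [e', dif_pos h]
      obtain ⟨hc1, hc2⟩ := h.choose_spec
      have hxC : x ∈ C h.choose := interior_subset (hc2 ▸ hxu)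
      rw [he']
      refine ⟨Or.inr ?_, fun z r hz hr0 hr1 => Or.inr ?_⟩
      · simp only [mem_iUnion]
        exact ⟨_, hc1, Or.inl ⟨x, ⟨hxC, hxK⟩, rfl⟩⟩
      · simp only [mem_iUnion]
        exact ⟨_, hc1, Or.inr ⟨((x, z), r), ⟨⟨hz, hxC⟩, hr0, hr1⟩, rfl⟩⟩

/-- selection over compact subsets of spaces with property C -/
theorem select (hX : PropertyC X) {K : Set X} (hK : IsCompact K) {G : X → E → Prop} {S : Set E}
    (h0 : (0 : E) ∈ S) (hcl : IsClosed {p : X × E | p.1 ∈ K ∧ ¬ G p.1 p.2})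
    (hgen : ∀ x ∈ K, ∀ L : Submodule ℝ E, FiniteDimensional ℝ L → ∃ e ∈ S, ∀ l ∈ L, ∀ m : ℝ,
      0 < m → G x (l + m • e)) :
    ∃ (k : ℕ) (f : Fin k → C(X, ℝ)) (e : Fin k → E), (∀ i, e i ∈ S) ∧
      (∀ i x, 0 ≤ f i x ∧ f i x ≤ 1) ∧ ∀ x ∈ K, G x (∑ i, f i x • e i) := by
  classical
  choose nx U e hUo hUc hmono heS hU using fun s : St K G => step hK h0 hcl hgen s
  let s0 : St K G := ⟨∅, ⊥, isCompact_empty, fun p hp => absurd hp (by simp), inferInstance⟩
  let σ : ℕ → St K G := fun n => Nat.rec s0 (fun _ s => nx s) n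
  have hσ : ∀ n, σ (n + 1) = nx (σ n) := fun n => rfl
  obtain ⟨V, hV, hVc⟩ := hX (fun n => U (σ n)) fun n => ⟨hUo _, hUc _⟩
  -- finitely many members
  let ι : Type v := {p : ℕ × Set X // p.2 ∈ V p.1}
  have hcov : K ⊆ ⋃ i : ι, i.1.2 := by
    intro x _
    have h1 : x ∈ ⋃ n, ⋃₀ V n := by rw [hVc]; exact mem_univ x
    simp only [mem_iUnion] at h1
    obtain ⟨n, v, hv, hxv⟩ := h1
    exact mem_iUnion.2 ⟨⟨(n, v), hv⟩, hxv⟩
  obtain ⟨t, ht⟩ := hK.elim_finite_subcover (fun i : ι => i.1.2)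
    (fun i => ((hV i.1.1).1 _ i.2).1) hcov
  let q : Fin t.card → ι := fun j => (t.equivFin.symm j : ι)
  have hq : Function.Injective q := fun a b h =>
    t.equivFin.symm.injective (Subtype.ext h)
  have hcov2 : K ⊆ ⋃ j : Fin t.card, (q j).1.2 := by
    intro x hx
    have h1 := ht hx
    simp only [mem_iUnion] at h1 ⊢
    obtain ⟨i, hi, hxi⟩ := h1
    refine ⟨t.equivFin ⟨i, hi⟩, ?_⟩
    show x ∈ ((t.equivFin.symm (t.equivFin ⟨i, hi⟩) : t) : ι).1.2
    rw [Equiv.symm_apply_apply]
    exact hxi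
  obtain ⟨f, hf1, hf2, hf3, -⟩ := exists_continuous_sum_one_of_isOpen_isCompact
    (s := fun j => (q j).1.2) (fun j => ((hV (q j).1.1).1 _ (q j).2).1) hK hcov2
  choose u huU hvu using fun j => ((hV (q j).1.1).1 _ (q j).2).2
  refine ⟨t.card, f, fun j => e (σ (q j).1.1) (u j), fun j => heS _ _,
    fun j x => ⟨(hf3 j x).1, (hf3 j x).2⟩, fun x hx => ?_⟩
  have hpos : ∀ j, 0 ≤ f j x := fun j => (hf3 j x).1
  have hsupp : ∀ j, f j x ≠ 0 → x ∈ (q j).1.2 := fun j hj =>
    hf1 j (subset_tsupport _ hj)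
  -- sums over the first levels
  let F : ℕ → Finset (Fin t.card) := fun N => Finset.univ.filter fun j => (q j).1.1 < N
  let w : ℕ → ℝ := fun N => ∑ j ∈ F N, f j x
  let z : ℕ → E := fun N => ∑ j ∈ F N, f j x • e (σ (q j).1.1) (u j)
  have key : ∀ N, w N = 0 ∨ (x, (w N)⁻¹ • z N) ∈ (σ N).g := by
    intro N
    induction N with
    | zero =>
      left
      simp [w, F]
    | succ N ih =>
      let M : Finset (Fin t.card) := Finset.univ.filter fun j => (q j).1.1 = N
      have hFM : F (N + 1) = F N ∪ M := by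
        ext j
        simp only [F, M, Finset.mem_filter, Finset.mem_univ, true_and, Finset.mem_union]
        omega
      have hdis : Disjoint (F N) M := by
        rw [Finset.disjoint_left]
        intro j h1 h2
        simp only [F, M, Finset.mem_filter, Finset.mem_univ, true_and] at h1 h2
        omega
      have hw : w (N + 1) = w N + ∑ j ∈ M, f j x := by
        simp only [w, hFM]; exact Finset.sum_union hdis
      have hz : z (N + 1) = z N + ∑ j ∈ M, f j x • e (σ (q j).1.1) (u j) := by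
        simp only [z, hFM]; exact Finset.sum_union hdis
      by_cases hM : ∃ j ∈ M, f j x ≠ 0
      · obtain ⟨j, hjM, hj⟩ := hM
        have hjN : (q j).1.1 = N := by simpa [M] using hjM
        have huniq : ∀ i ∈ M, i ≠ j → f i x = 0 := by
          intro i hi hij
          by_contra hne
          apply hij
          apply hq
          have hiN : (q i).1.1 = N := by simpa [M] using hi
          apply Subtype.ext
          refine Prod.ext (hiN.trans hjN.symm) ?_
          have hVd := (hV N).2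
          by_contra hne2
          have hi2 : (q i).1.2 ∈ V N := hiN ▸ (q i).2
          have hj2 : (q j).1.2 ∈ V N := hjN ▸ (q j).2
          exact Set.disjoint_left.1 (hVd hi2 hj2 hne2) (hsupp i hne) (hsupp j hj)
        have e1 : ∑ i ∈ M, f i x = f j x :=
          Finset.sum_eq_single_of_mem j hjM huniq
        have e2 : ∑ i ∈ M, f i x • e (σ (q i).1.1) (u i) = f j x • e (σ N) (u j) := by
          rw [Finset.sum_eq_single_of_mem j hjM fun i hi hij => by rw [huniq i hi hij, zero_smul],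
            hjN]
        rw [hw, hz, e1, e2]
        have hUj : u j ∈ U (σ N) := by have := huU j; rwa [hjN] at this
        obtain ⟨g1, g2⟩ := hU (σ N) (u j) hUj x (hvu j (hsupp j hj)) hx
        have hfj : 0 < f j x := lt_of_le_of_ne (hpos j) (Ne.symm hj)
        right
        rw [hσ]
        rcases ih with ih | ih
        · have hz0 : z N = 0 := by
            refine Finset.sum_eq_zero fun i hi => ?_
            have : f i x = 0 := (Finset.sum_eq_zero_iff_of_nonneg fun i _ => hpos i).1 ih i hi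
            rw [this, zero_smul]
          rw [ih, hz0, zero_add, zero_add, smul_smul, inv_mul_cancel₀ hj, one_smul]
          exact g1
        · have hwN : 0 ≤ w N := Finset.sum_nonneg fun i _ => hpos i
          rcases hwN.eq_or_lt with hw0 | hw0
          · have hz0 : z N = 0 := by
              refine Finset.sum_eq_zero fun i hi => ?_
              have : f i x = 0 :=
                (Finset.sum_eq_zero_iff_of_nonneg fun i _ => hpos i).1 hw0.symm i hi
              rw [this, zero_smul]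
            rw [← hw0, hz0, zero_add, zero_add, smul_smul, inv_mul_cancel₀ hj, one_smul]
            exact g1
          · have hs : 0 < w N + f j x := by positivity
            have h3 := g2 _ (f j x / (w N + f j x)) ih (by positivity)
              ((div_le_one hs).2 (by linarith))
            have h4 : (1 - f j x / (w N + f j x)) • (w N)⁻¹ • z N +
                (f j x / (w N + f j x)) • e (σ N) (u j) =
                (w N + f j x)⁻¹ • (z N + f j x • e (σ N) (u j)) := by
              rw [smul_add, smul_smul, smul_smul]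
              congr 2
              · field_simp
                ring
              · field_simp
            rwa [h4] at h3
      · push Not at hM
        have e1 : ∑ i ∈ M, f i x = 0 := Finset.sum_eq_zero hM
        have e2 : ∑ i ∈ M, f i x • e (σ (q i).1.1) (u i) = 0 :=
          Finset.sum_eq_zero fun i hi => by rw [hM i hi, zero_smul]
        rw [hw, hz, e1, e2, add_zero, add_zero, hσ]
        exact ih.imp id fun h => hmono _ h
  obtain ⟨N, hN⟩ : ∃ N, ∀ j, (q j).1.1 < N := by
    obtain ⟨N, hN⟩ := (Set.finite_range fun j => (q j).1.1).bddAbove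
    exact ⟨N + 1, fun j => Nat.lt_succ_of_le (hN ⟨j, rfl⟩)⟩
  have hFN : F N = Finset.univ := Finset.filter_true_of_mem fun j _ => hN j
  have hw1 : w N = 1 := by
    simp only [w, hFN]
    have := hf2 hx
    simpa using this
  have hzN : z N = ∑ j, f j x • e (σ (q j).1.1) (u j) := by simp only [z, hFN]
  rcases key N with h | h
  · rw [hw1] at h; exact absurd h one_ne_zero
  · rw [hw1, inv_one, one_smul, hzN] at h
    exact ((σ N).hg _ h).2.2

end

end Vale.Agent.P133.R2.H778
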