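import Vale.Agent.P133.R2.H28.Conv
import Vale.Agent.P133.R2.H778.Select
import Vale.Agent.P133.H832.FieldDefs

/-!
P133 (helper778): the set of pairs (point, nowhere scalar element) is open.
-/

open scoped ComplexOrder

namespace Vale.Agent.P133.R2.H778

open Vale.Agent.P133 Vale.Agent.P133.H832 Vale.Agent.P133.R2.H28 Set Filter Topology

universe u v

section

variable {X : Type v} [TopologicalSpace X] {B : X → Type u} [∀ t, NonUnitalCStarAlgebra (B t)]
  [∀ t, PartialOrder (B t)] [∀ t, StarOrderedRing (B t)] {A : Type u} [NonUnitalCStarAlgebra A]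
  [PartialOrder A] [StarOrderedRing A]

/-- `z` is nowhere scalar relative to `a` modulo the closed ideals over `t` far from `a` -/
def Gd (π : ∀ t, A →⋆ₙₐ[ℂ] B t) (a : A) (δ : ℝ) (t : X) (z : A) : Prop :=
  ∀ P : Submodule ℂ A, IsClosedIdeal P → (∀ k, π t k = 0 → k ∈ P) → (∀ p ∈ P, δ ≤ ‖a - p‖) →
    ∀ s : ℝ, z * a - s • a ∉ P

/-- the limit of a family of ideals along an ultrafilter -/
def limI {I : Type*} (F : Ultrafilter I) (Q : I → Submodule ℂ A) : Submodule ℂ A where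
  carrier := {y | ∀ ε : ℝ, 0 < ε → ∀ᶠ p in (F : Filter I), ∃ q ∈ Q p, ‖y - q‖ < ε}
  zero_mem' := fun ε hε => Eventually.of_forall fun p => ⟨0, (Q p).zero_mem, by simpa using hε⟩
  add_mem' := by
    intro y y' h h' ε hε
    filter_upwards [h (ε / 2) (by positivity), h' (ε / 2) (by positivity)] with p h1 h2
    obtain ⟨q, hq, h1⟩ := h1
    obtain ⟨q', hq', h2⟩ := h2
    refine ⟨q + q', (Q p).add_mem hq hq', ?_⟩
    calc ‖y + y' - (q + q')‖ = ‖(y - q) + (y' - q')‖ := by congr 1; abel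
      _ ≤ ‖y - q‖ + ‖y' - q'‖ := norm_add_le _ _
      _ < ε := by linarith
  smul_mem' := by
    intro c y h ε hε
    have hc : 0 < ‖c‖ + 1 := by positivity
    filter_upwards [h (ε / (‖c‖ + 1)) (by positivity)] with p h1
    obtain ⟨q, hq, h1⟩ := h1
    refine ⟨c • q, (Q p).smul_mem _ hq, ?_⟩
    rw [← smul_sub, norm_smul]
    rw [lt_div_iff₀ hc] at h1
    nlinarith [norm_nonneg (y - q), norm_nonneg c]

omit [PartialOrder A] [StarOrderedRing A] in
theorem limI_closedIdeal {I : Type*} (F : Ultrafilter I) (Q : I → Submodule ℂ A)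
    (hQ : ∀ᶠ p in (F : Filter I), IsClosedIdeal (Q p)) : IsClosedIdeal (limI F Q) := by
  refine ⟨?_, fun b y hy => ⟨fun ε hε => ?_, fun ε hε => ?_⟩⟩
  · refine isClosed_of_closure_subset fun y hy => ?_
    intro ε hε
    obtain ⟨y', hy', h1⟩ := Metric.mem_closure_iff.1 hy (ε / 2) (by positivity)
    rw [dist_eq_norm] at h1
    filter_upwards [hy' (ε / 2) (by positivity)] with p h2
    obtain ⟨q, hq, h2⟩ := h2
    refine ⟨q, hq, ?_⟩
    calc ‖y - q‖ = ‖(y - y') + (y' - q)‖ := by rw [sub_add_sub_cancel]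
      _ ≤ ‖y - y'‖ + ‖y' - q‖ := norm_add_le _ _
      _ < ε := by linarith
  · have hc : 0 < ‖b‖ + 1 := by positivity
    filter_upwards [hy (ε / (‖b‖ + 1)) (by positivity), hQ] with p h1 h2
    obtain ⟨q, hq, h1⟩ := h1
    refine ⟨b * q, (h2.2 _ _ hq).1, ?_⟩
    rw [← mul_sub]
    rw [lt_div_iff₀ hc] at h1
    have := norm_mul_le b (y - q)
    nlinarith [norm_nonneg (y - q), norm_nonneg b]
  · have hc : 0 < ‖b‖ + 1 := by positivity
    filter_upwards [hy (ε / (‖b‖ + 1)) (by positivity), hQ] with p h1 h2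
    obtain ⟨q, hq, h1⟩ := h1
    refine ⟨q * b, (h2.2 _ _ hq).2, ?_⟩
    rw [← sub_mul]
    rw [lt_div_iff₀ hc] at h1
    have := norm_mul_le (y - q) b
    nlinarith [norm_nonneg (y - q), norm_nonneg b]

theorem closed_bad [T2Space X] {π : ∀ t, A →⋆ₙₐ[ℂ] B t}
    (hu : ∀ (a : A) (r : ℝ), 0 < r → IsCompact {t | r ≤ ‖π t a‖}) {K : Set X}
    (hK : IsCompact K) (a : A) {δ : ℝ} (hδ : 0 < δ) :
    IsClosed {p : X × A | p.1 ∈ K ∧ ¬ Gd π a δ p.1 p.2} := by
  classical
  rw [isClosed_iff_ultrafilter]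
  rintro ⟨x, z⟩ F hF hbad
  have hx : Tendsto Prod.fst (F : Filter (X × A)) (𝓝 x) :=
    (continuous_fst.tendsto (x, z)).mono_left hF
  have hz : Tendsto Prod.snd (F : Filter (X × A)) (𝓝 z) :=
    (continuous_snd.tendsto (x, z)).mono_left hF
  have hbad' : ∀ᶠ p in (F : Filter (X × A)), p.1 ∈ K ∧ ¬ Gd π a δ p.1 p.2 := hbad
  have hxK : x ∈ K := hK.isClosed.mem_of_tendsto hx (hbad'.mono fun p hp => hp.1)
  have hch : ∀ p : X × A, ∃ (P : Submodule ℂ A) (s : ℝ), ¬ Gd π a δ p.1 p.2 → IsClosedIdeal P ∧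
      (∀ k, π p.1 k = 0 → k ∈ P) ∧ (∀ q ∈ P, δ ≤ ‖a - q‖) ∧ p.2 * a - s • a ∈ P := by
    intro p
    by_cases h : Gd π a δ p.1 p.2
    · exact ⟨⊥, 0, fun h' => absurd h h'⟩
    · have h' := h
      unfold Gd at h'
      push Not at h'
      obtain ⟨P, h1, h2, h3, s, h4⟩ := h'
      exact ⟨P, s, fun _ => ⟨h1, h2, h3, h4⟩⟩
  choose Q s hQ using hch
  have hQF : ∀ᶠ p in (F : Filter (X × A)), IsClosedIdeal (Q p) ∧
      (∀ k, π p.1 k = 0 → k ∈ Q p) ∧ (∀ q ∈ Q p, δ ≤ ‖a - q‖) ∧ p.2 * a - s p • a ∈ Q p :=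
    hbad'.mono fun p hp => hQ p hp.2
  have hP : IsClosedIdeal (limI F Q) := limI_closedIdeal F Q (hQF.mono fun p hp => hp.1)
  -- the scalars are bounded
  have hz1 : ∀ᶠ p in (F : Filter (X × A)), ‖p.2‖ < ‖z‖ + 1 :=
    (hz.norm).eventually_lt_const (by linarith)
  set R : ℝ := (‖z‖ + 1) * ‖a‖ / δ with hR
  have hs : ∀ᶠ p in (F : Filter (X × A)), s p ∈ Icc (-R) R := by
    filter_upwards [hQF, hz1] with p hp hp1
    show -R ≤ s p ∧ s p ≤ R
    rw [← abs_le]
    obtain ⟨h1, -, h3, h4⟩ := hp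
    by_cases h0 : s p = 0
    · rw [h0, abs_zero]; positivity
    · have h5 : a - (s p)⁻¹ • (p.2 * a) ∈ Q p := by
        have h6 : a - (s p)⁻¹ • (p.2 * a) = ((-(s p)⁻¹ : ℝ) : ℂ) • (p.2 * a - s p • a) := by
          rw [Complex.coe_smul, smul_sub, smul_smul]
          rw [neg_mul, inv_mul_cancel₀ h0, neg_smul, neg_smul, one_smul]
          abel
        rw [h6]
        exact (Q p).smul_mem _ h4
      have h7 := h3 _ h5
      rw [sub_sub_cancel, norm_smul, norm_inv, Real.norm_eq_abs] at h7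
      have h8 : 0 < |s p| := abs_pos.2 h0
      have h9 : δ * |s p| ≤ ‖p.2 * a‖ := by
        rw [inv_mul_eq_div, le_div_iff₀ h8] at h7
        exact h7
      have h10 := norm_mul_le p.2 a
      rw [hR, le_div_iff₀ hδ]
      nlinarith [norm_nonneg a, norm_nonneg p.2]
  obtain ⟨s0, -, hs0⟩ := isCompact_Icc.ultrafilter_le_nhds (F.map s)
    (by rw [Ultrafilter.coe_map]; exact le_principal_iff.2 hs)
  have hs0' : Tendsto s (F : Filter (X × A)) (𝓝 s0) := by
    rw [Ultrafilter.coe_map] at hs0; exact hs0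
  refine ⟨hxK, fun hG => hG (limI F Q) hP ?_ ?_ s0 ?_⟩
  · -- kernel
    have hpos : ∀ y : A, 0 ≤ y → π x y = 0 → y ∈ limI F Q := by
      intro y hy hxy ε hε
      have c1 : IsClosed {t | ε / 2 ≤ ‖π t y‖} := (hu y (ε / 2) (by positivity)).isClosed
      have c2 : ∀ᶠ p in (F : Filter (X × A)), p.1 ∈ {t | ε / 2 ≤ ‖π t y‖}ᶜ := by
        refine hx (c1.isOpen_compl.mem_nhds ?_)
        simp only [mem_compl_iff, mem_ofPred_eq, not_le, hxy, norm_zero]
        positivity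
      filter_upwards [c2, hQF] with p hp hp2
      simp only [mem_compl_iff, mem_ofPred_eq, not_le] at hp
      refine ⟨H28.cut y (ε / 2), hp2.2.1 _ ?_, ?_⟩
      · have hker := cut_mem_of_norm (P := LinearMap.ker (π p.1 : A →ₗ[ℂ] B p.1)) hy
          (half_pos hε) (π p.1) (fun k => by simp) hp.le
        simpa [H28.cut] using hker
      · have := norm_cut_sub_le hy (half_pos hε)
        rw [← norm_neg, neg_sub]
        linarith
    intro k hk
    refine hP.of_star_mul_self (hpos _ (star_mul_self_nonneg k) ?_)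
    rw [map_mul, hk, mul_zero]
  · intro p hp
    refine le_of_forall_pos_le_add fun ε hε => ?_
    obtain ⟨r, ⟨q, hq, h1⟩, h2⟩ := ((hp ε hε).and hQF).exists
    calc δ ≤ ‖a - q‖ := h2.2.2.1 q hq
      _ = ‖(a - p) + (p - q)‖ := by rw [sub_add_sub_cancel]
      _ ≤ ‖a - p‖ + ‖p - q‖ := norm_add_le _ _
      _ ≤ ‖a - p‖ + ε := by linarith
  · intro ε hε
    have hc : 0 < ‖a‖ + 1 := by positivity
    have e1 : ∀ᶠ p in (F : Filter (X × A)), ‖p.2 - z‖ < ε / (2 * (‖a‖ + 1)) := by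
      have h1 := (tendsto_iff_norm_sub_tendsto_zero.1 hz)
      exact h1.eventually_lt_const (by positivity)
    have e2 : ∀ᶠ p in (F : Filter (X × A)), ‖s p - s0‖ < ε / (2 * (‖a‖ + 1)) := by
      have h1 := (tendsto_iff_norm_sub_tendsto_zero.1 hs0')
      exact h1.eventually_lt_const (by positivity)
    filter_upwards [e1, e2, hQF] with p h1 h2 h3
    refine ⟨_, h3.2.2.2, ?_⟩
    have h4 : z * a - s0 • a - (p.2 * a - s p • a) = (s p - s0) • a - (p.2 - z) * a := by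
      rw [sub_smul, sub_mul]; abel
    rw [h4]
    have h5 := norm_mul_le (p.2 - z) a
    have h6 : ‖(s p - s0) • a‖ = ‖s p - s0‖ * ‖a‖ := norm_smul _ _
    have h7 := norm_sub_le ((s p - s0) • a) ((p.2 - z) * a)
    rw [lt_div_iff₀ (by positivity)] at h1 h2
    nlinarith [norm_nonneg a, norm_nonneg (p.2 - z), norm_nonneg (s p - s0)]

end

end Vale.Agent.P133.R2.H778
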