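import Vale.Agent.P133.R2.H778.Fin

/-!
P133 (helper778): infinite orthogonal sequences and pure infiniteness of fields over spaces with
property C.
-/

open scoped ComplexOrder

namespace Vale.Agent.P133.R2.H778

open Vale.Agent.P133 Vale.Agent.P133.Statement Vale.Agent.P133.H832 Vale.Agent.P133.R2.H28
  Vale.Agent.P133F Vale.Agent.P133.H681 Set Filter Topology

universe u v

section

variable {A : Type u} [NonUnitalCStarAlgebra A] [PartialOrder A] [StarOrderedRing A]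

theorem cut_cut' {a b : A} (ha : 0 ≤ a) (hb : 0 ≤ b) {δ' δ : ℝ} (hδ' : 0 < δ') (h' : δ' < δ)
    (h : InId b (H28.cut a δ')) : ∃ η : ℝ, 0 < η ∧ InId (H28.cut b η) (H28.cut a δ) := by
  obtain ⟨η, hη, h1⟩ := normMod_inId h (sub_pos.2 h')
  refine ⟨η, hη, inId_cut ha (ε := δ) ?_ (hδ'.trans h') le_rfl⟩
  have h2 : NormMod {H28.cut b η} b η := by
    have h3 := normMod_of_cut (K := {H28.cut b η}) hb hη
      (normMod_singleton (InId.refl (H28.cut b η)))
    rwa [zero_add] at h3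
  exact (normMod_of_cut ha hδ' (h1 _ h2)).mono (by linarith)

theorem inId_cut_le {a b : A} (ha : 0 ≤ a) (hb : 0 ≤ b) {δ' δ : ℝ} (hδ' : 0 < δ') (h' : δ' < δ)
    (h : InId b (H28.cut a δ')) : InId b (H28.cut a δ) := by
  obtain ⟨η, hη, h1⟩ := cut_cut' ha hb hδ' h' h
  exact (inId_cut_self hb hη).trans h1

theorem exists_seq (h : TwoOrth A) {a : A} (ha : 0 ≤ a) {δ : ℝ} (hδ : 0 < δ) :
    ∃ b : ℕ → A, (∀ n, 0 ≤ b n) ∧ (∀ n m, n ≠ m → b n * b m = 0) ∧ (∀ n, b n ∈ RI a) ∧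
      ∀ n, InId (b n) (H28.cut a δ) := by
  classical
  let S := {p : A × ℝ // 0 ≤ p.1 ∧ 0 < p.2 ∧ p.2 < δ ∧ p.1 ∈ RI a ∧ InId p.1 (H28.cut a p.2)}
  have hstep : ∀ s : S, ∃ (s' : S) (b : A), 0 ≤ b ∧ b ∈ RI s.1.1 ∧ s'.1.1 ∈ RI s.1.1 ∧
      b * s'.1.1 = 0 ∧ InId b (H28.cut a δ) := by
    rintro ⟨⟨r, e⟩, hr, he, heδ, hra, hrI⟩
    simp only at hr he heδ hra hrI
    have h1 : e < (e + δ) / 2 := by linarith
    have h2 : (e + δ) / 2 < δ := by linarith
    obtain ⟨η, hη, hηI⟩ := cut_cut' ha hr he h1 hrI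
    obtain ⟨b₁, b₂, hb1, hb2, h12, hr1, hr2, hI1, hI2⟩ := h r hr η hη
    have g1 : b₁ ∈ RI r := Her.mem_RI hr1
    have g2 : b₂ ∈ RI r := Her.mem_RI hr2
    exact ⟨⟨(b₂, (e + δ) / 2), hb2, by simp only; linarith, h2, RI.trans g2 hra, hI2.trans hηI⟩,
      b₁, hb1, g1, g2, h12, inId_cut_le ha hb1 (by linarith) h2 (hI1.trans hηI)⟩
  choose nx bb hb0 hbR hnR horth hbI using hstep
  let s0 : S := ⟨(a, δ / 2), ha, half_pos hδ, by simp only; linarith, self_mem_RI ha,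
    inId_cut_self ha (half_pos hδ)⟩
  obtain ⟨σ, hσ⟩ : ∃ σ : ℕ → S, ∀ n, σ (n + 1) = nx (σ n) :=
    ⟨fun n => Nat.rec s0 (fun _ s => nx s) n, fun _ => rfl⟩
  clear_value s0
  have hnest : ∀ n k, (σ (n + k)).1.1 ∈ RI (σ n).1.1 := by
    intro n k
    induction k with
    | zero => exact self_mem_RI (σ n).2.1
    | succ k ih =>
      have : (σ (n + (k + 1))).1.1 ∈ RI (σ (n + k)).1.1 := by
        rw [← add_assoc, hσ (n + k)]; exact hnR (σ (n + k))
      exact RI.trans this ih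
  have hlt : ∀ n m, n < m → bb (σ n) * bb (σ m) = 0 := by
    intro n m hnm
    obtain ⟨k, rfl⟩ := Nat.exists_eq_add_of_lt hnm
    have h1 : bb (σ (n + k + 1)) ∈ RI (σ (n + 1)).1.1 := by
      have e1 : n + k + 1 = n + 1 + k := by omega
      rw [e1]
      exact RI.trans (hbR (σ (n + 1 + k))) (hnest (n + 1) k)
    have h2 : star (bb (σ n)) * (σ (n + 1)).1.1 = 0 := by
      rw [(IsSelfAdjoint.of_nonneg (hb0 _)).star_eq, hσ]; exact horth _
    have h3 := RI.orth h2 (self_mem_RI (hb0 _)) h1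
    rwa [(IsSelfAdjoint.of_nonneg (hb0 _)).star_eq] at h3
  refine ⟨fun n => bb (σ n), fun n => hb0 _, fun n m hnm => ?_, fun n => ?_, fun n => hbI _⟩
  · rcases lt_or_gt_of_ne hnm with h1 | h1
    · exact hlt n m h1
    · have h2 := congrArg star (hlt m n h1)
      rwa [star_mul, star_zero, (IsSelfAdjoint.of_nonneg (hb0 _)).star_eq,
        (IsSelfAdjoint.of_nonneg (hb0 _)).star_eq] at h2
  · exact RI.trans (hbR _) (σ n).2.2.2.2.1

/-- all multiples of an element of the closed ideal generated by `x`, in a purely infinite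
algebra -/
theorem infB_of_pi (hA : EltPI A) {x y : A} (hx : 0 ≤ x) (hy : 0 ≤ y) (h : InId x y) :
    InfB x y := by
  have h1 : InfB x x := by
    refine ⟨hx, fun m ε hε => ?_⟩
    obtain ⟨d, -, hd⟩ := diag_of_eltPI A hA m (fun _ => CFC.sqrt x) ε hε
    refine ⟨d, fun i j => ?_⟩
    have hs : star (CFC.sqrt x) = CFC.sqrt x :=
      (IsSelfAdjoint.of_nonneg (CFC.sqrt_nonneg x)).star_eq
    have hq : CFC.sqrt x * CFC.sqrt x = x := CFC.sqrt_mul_sqrt_self x hx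
    have h2 := hd i j
    rw [hs, hq] at h2
    have h3 : star (CFC.sqrt x * d i) * (CFC.sqrt x * d j) = star (d i) * x * d j := by
      rw [star_mul, hs, mul_assoc, ← mul_assoc (CFC.sqrt x), hq, mul_assoc]
    rwa [h3] at h2
  exact h1.sub (H832.subId_of_inId' hx hy h)

end

end Vale.Agent.P133.R2.H778
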