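import Vale.Agent.P133.R2.H778.PiField
import Vale.Agent.P133.H681.Full

/-!
P133 (helper778): simple fibres.
-/

open scoped ComplexOrder

namespace Vale.Agent.P133.R2.H778

open Vale.Agent.P133 Vale.Agent.P133.Statement Vale.Agent.P133.H832 Vale.Agent.P133.R2.H28
  Vale.Agent.P133F Vale.Agent.P133.H681 Set Filter Topology

universe u v

theorem simple_countable {C : Type u} [NonUnitalCStarAlgebra C] (h : IsSimpleC C) :
    {Q : Submodule ℂ C | IsPrimeIdeal Q}.Countable := by
  refine (Set.countable_singleton (⊥ : Submodule ℂ C)).mono ?_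
  rintro Q ⟨hQ, hne, -⟩
  rw [mem_singleton_iff, Submodule.eq_bot_iff]
  intro x hx
  by_contra hx0
  apply hne
  refine eq_top_iff.2 fun b _ => ?_
  have h1 : b ∈ closure (Q : Set C) := by
    refine Metric.mem_closure_iff.2 fun ε hε => ?_
    obtain ⟨m, r, s, h2⟩ := h x b hx0 ε hε
    refine ⟨∑ k, r k * x * s k, Q.sum_mem fun k _ => (hQ.2 (s k) _ (hQ.2 (r k) _ hx).1).2, ?_⟩
    rwa [dist_comm, dist_eq_norm]
  rwa [hQ.1.closure_eq] at h1

theorem simple_coincide {C : Type u} [NonUnitalCStarAlgebra C] [PartialOrder C]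
    [StarOrderedRing C] (h : IsSimpleC C) : Coincide C :=
  coincide_of fun hW => pi_of_eltPI (wpi_simple h hW)

end Vale.Agent.P133.R2.H778
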